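import Vale.Agent.P091.T.H103.Gain

/-! The energy of the bad pairs `(k, v)`. -/

set_option linter.unusedSectionVars false

namespace Vale.Agent.P091.T.H103

open Vale.Agent.P091.H413

namespace Dat

variable {ι I Q : Type} [Fintype ι] [Fintype I] [Fintype Q] {d : Dat ι I Q}

open Classical in
/-- mass of the letters whose status changes at `v` -/
noncomputable def lm (d : Dat ι I Q) (v : Node) : ℝ :=
  ∑ κ, if d.st' κ v ≠ none ∧ d.st κ v ≠ d.st' κ v then d.ma κ v else 0

open Classical in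
/-- mass of the exceptional letters -/
noncomputable def xm (d : Dat ι I Q) (Exc : ι → Node → Prop) (v : Node) : ℝ :=
  ∑ κ, if d.st κ v ≠ none ∧ Exc κ v then d.ma κ v else 0

/-- error mass -/
noncomputable def em (d : Dat ι I Q) (v : Node) : ℝ :=
  ∑ κ, if d.st κ v ≠ none then d.err κ v * d.ma κ v else 0

theorem r_nonneg (h : d.Ok) {v : Node} (hv : v.length < d.n) : 0 ≤ d.r v := by
  have := av_mono (d := d) hv.le (F := d.f v) (G := d.f' v) fun x hx hs => f_le_f' h hv hx hs
  unfold r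
  linarith

theorem r_le (h : d.Ok) {v : Node} (hv : v.length < d.n) : d.r v ≤ 2 := by
  have h1 := av_f'_le h hv.le
  have h2 := av_f_nonneg h hv
  unfold r
  linarith

theorem lm_nonneg (h : d.Ok) {v : Node} (hv : v.length ≤ d.n) : 0 ≤ d.lm v := by
  apply Finset.sum_nonneg
  intro κ _
  split_ifs
  · exact ma_nonneg h κ hv
  · exact le_rfl

theorem em_nonneg (h : d.Ok) {v : Node} (hv : v.length ≤ d.n) : 0 ≤ d.em v := by
  apply Finset.sum_nonneg
  intro κ _
  split_ifs
  · exact mul_nonneg (h.err0 κ v) (ma_nonneg h κ hv)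
  · exact le_rfl

theorem norm_M_le (h : d.Ok) (κ : ι) {v : Node} (hv : v.length < d.n) : ‖d.M κ v‖ ≤ 1 := by
  refine (norm_avC_le (d := d) hv.le (G := d.f v) fun x hx _ => ?_).trans (h.f1 v hv)
  have h0 := h.f0 v x hv hx
  rw [norm_mul, Complex.norm_real, Real.norm_of_nonneg h0]
  have := mul_le_mul_of_nonneg_left (h.e1 κ x hx) h0
  linarith

theorem norm_M'_le (h : d.Ok) (κ : ι) {v : Node} (hv : v.length ≤ d.n) : ‖d.M' κ v‖ ≤ 2 := by
  refine (norm_avC_le (d := d) hv (G := d.f' v) fun x hx _ => ?_).trans (av_f'_le h hv)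
  have h0 := f'_nonneg h hv hx
  rw [norm_mul, Complex.norm_real, Real.norm_of_nonneg h0]
  have := mul_le_mul_of_nonneg_left (h.e1 κ x hx) h0
  linarith

theorem M'_le_M (h : d.Ok) (κ : ι) {v : Node} (hv : v.length < d.n) :
    ‖d.M' κ v‖ ≤ ‖d.M κ v‖ + d.r v := by
  have e1 : d.M' κ v - d.M κ v = d.avC v (fun y => ((d.f' v y - d.f v y : ℝ) : ℂ) * d.e κ y) := by
    unfold M' M avC
    rw [← LC_sub]
    congr 1
    funext y
    push_cast
    ring
  have e2 : d.r v = d.av v (fun y => d.f' v y - d.f v y) := by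
    unfold r av
    rw [← Lf_sub]
  have h1 : ‖d.M' κ v - d.M κ v‖ ≤ d.r v := by
    rw [e1, e2]
    refine norm_avC_le (d := d) hv.le fun x hx hs => ?_
    have h0 := f_le_f' h hv hx hs
    rw [norm_mul, Complex.norm_real, Real.norm_of_nonneg (by linarith)]
    have := mul_le_mul_of_nonneg_left (h.e1 κ x hx) (by linarith : 0 ≤ d.f' v x - d.f v x)
    linarith
  have h2 := norm_add_le (d.M κ v) (d.M' κ v - d.M κ v)
  rw [add_sub_cancel] at h2
  linarith

theorem dM_eq (κ : ι) (v : Node) : d.dM κ v = (d.M' κ (true :: v) - d.M' κ (false :: v)) / 2 := by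
  unfold dM M' DC avC
  simp only [List.length_cons]
  rw [Nat.sub_add_eq]
  rfl

theorem M_eq (κ : ι) {v : Node} (hv : v.length < d.n) :
    d.M κ v = (d.M' κ (true :: v) + d.M' κ (false :: v)) / 2 := avC_eq hv _

theorem norm_dM_le_one (h : d.Ok) (κ : ι) {v : Node} (hv : v.length < d.n) :
    ‖d.dM κ v‖ ≤ 1 := by
  have h1 := norm_DC_le (d.n - v.length - 1) (f := fun y => (d.f v y : ℂ) * d.e κ y)
    (g := d.f v) v (fun x hx _ => by
      have hx' : x.length = d.n := by omega
      have h0 := h.f0 v x hv hx'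
      rw [norm_mul, Complex.norm_real, Real.norm_of_nonneg h0]
      have := mul_le_mul_of_nonneg_left (h.e1 κ x hx') h0
      linarith)
  have e3 : d.n - v.length - 1 + 1 = d.n - v.length := by omega
  rw [e3] at h1
  exact h1.trans (h.f1 v hv)

/-- a letter which is unbiased at `v` and at one child does not jump -/
theorem dM_le_child (κ : ι) {v : Node} (hv : v.length < d.n) (c : Bool) :
    ‖d.dM κ v‖ ≤ ‖d.M' κ (c :: v)‖ + ‖d.M κ v‖ := by
  rw [dM_eq]
  have h1 := M_eq (d := d) κ hv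
  have h2 : ‖(d.M' κ (true :: v) - d.M' κ (false :: v)) / 2‖
      = ‖d.M' κ (c :: v) - d.M κ v‖ := by
    rw [h1]
    cases c
    · rw [← norm_neg]
      congr 1
      ring
    · congr 1
      ring
  rw [h2]
  exact norm_sub_le _ _

theorem ma_eq (κ : ι) {v : Node} (hv : v.length < d.n) :
    d.ma κ v = (d.ma κ (true :: v) + d.ma κ (false :: v)) / 2 := av_eq hv _

theorem sum_wt_mul_le (h : d.Ok) (κ : ι) (o : Option Node) {x : ℝ} (hx : 0 ≤ x)
    (s : Finset (K I d.n)) : ∑ k ∈ s, d.wt k.1 k.2 κ o * x ≤ if o ≠ none then x else 0 := by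
  rw [← Finset.sum_mul]
  rcases o with _ | w
  · simp [wt_none]
  · rw [if_pos (by simp)]
    have h1 : ∑ k ∈ s, d.wt k.1 k.2 κ (some w) ≤ 1 := by
      refine (Finset.sum_le_univ_sum_of_nonneg fun k => wt_nonneg h _ _ _ _).trans ?_
      exact sum_wt_le h κ (some w)
    calc _ ≤ 1 * x := mul_le_mul_of_nonneg_right h1 hx
      _ = x := one_mul x

section bad

open Classical

variable (Exc : ι → Node → Prop) (δ : ℝ)

/-- exceptional mass in the class `k` at `v` -/
noncomputable def xk (d : Dat ι I Q) (k : K I d.n) (v : Node) : ℝ :=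
  ∑ κ, d.wt k.1 k.2 κ (d.st κ v) * if Exc κ v then d.ma κ v else 0

/-- exceptional mass of the class `k` at the child `c` -/
noncomputable def xk' (d : Dat ι I Q) (k : K I d.n) (c : Bool) (v : Node) : ℝ :=
  ∑ κ, d.wt k.1 k.2 κ (d.st κ v) *
    if d.st κ (c :: v) = d.st κ v ∧ Exc κ (c :: v) then d.ma κ (c :: v) else 0

/-- lost mass of the class `k` at the child `c` -/
noncomputable def lk' (d : Dat ι I Q) (k : K I d.n) (c : Bool) (v : Node) : ℝ :=
  ∑ κ, d.wt k.1 k.2 κ (d.st κ v) * if d.st κ (c :: v) ≠ d.st κ v then d.ma κ (c :: v) else 0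

/-- the class is dominated by exceptional letters -/
def BX (d : Dat ι I Q) (k : K I d.n) (v : Node) : Prop :=
  δ * d.sys.α k v ≤ 4 * (d.xk Exc k v + (d.xk' Exc k true v + d.xk' Exc k false v))

/-- good pairs -/
def Good (d : Dat ι I Q) (k : K I d.n) (v : Node) : Prop :=
  v.length + 1 < d.n ∧ ‖d.sys.z k v‖ ≤ 8 * δ * d.sys.α k v ∧
    ∀ c : Bool, ‖d.sys.z' k (c :: v)‖ ≤ 8 * δ * d.sys.α' k (c :: v)

variable {Exc δ}

theorem xk_nonneg (h : d.Ok) (k : K I d.n) {v : Node} (hv : v.length < d.n) :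
    0 ≤ d.xk Exc k v := by
  apply Finset.sum_nonneg
  intro κ _
  apply mul_nonneg (wt_nonneg h _ _ _ _)
  split_ifs
  · exact ma_nonneg h κ hv.le
  · exact le_rfl

theorem xk'_nonneg (h : d.Ok) (k : K I d.n) (c : Bool) {v : Node} (hv : v.length < d.n) :
    0 ≤ d.xk' Exc k c v := by
  apply Finset.sum_nonneg
  intro κ _
  apply mul_nonneg (wt_nonneg h _ _ _ _)
  split_ifs
  · exact ma_nonneg h κ (by simp only [List.length_cons]; omega)
  · exact le_rfl

theorem lk'_nonneg (h : d.Ok) (k : K I d.n) (c : Bool) {v : Node} (hv : v.length < d.n) :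
    0 ≤ d.lk' k c v := by
  apply Finset.sum_nonneg
  intro κ _
  apply mul_nonneg (wt_nonneg h _ _ _ _)
  split_ifs
  · exact ma_nonneg h κ (by simp only [List.length_cons]; omega)
  · exact le_rfl

theorem z_le2 (h : d.Ok) (hδ : 0 ≤ δ)
    (hE : ∀ κ v, v.length < d.n → d.st κ v ≠ none → ¬ Exc κ v → ‖d.M κ v‖ ≤ δ)
    (hr : ∀ κ v, v.length < d.n → d.st κ v ≠ none → d.err κ v ≤ δ)
    (k : K I d.n) {v : Node} (hv : v.length < d.n) :
    ‖d.sys.z k v‖ ≤ 2 * δ * d.sys.α k v + d.xk Exc k v := by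
  refine (z_le h k hv).trans ?_
  have e : 2 * δ * d.sys.α k v + d.xk Exc k v
      = ∑ κ, d.wt k.1 k.2 κ (d.st κ v) * (2 * δ * d.ma κ v
        + if Exc κ v then d.ma κ v else 0) := by
    show 2 * δ * (∑ κ, d.wt k.1 k.2 κ (d.st κ v) * d.ma κ v) + d.xk Exc k v = _
    unfold xk
    rw [Finset.mul_sum, ← Finset.sum_add_distrib]
    exact Finset.sum_congr rfl fun κ _ => by ring
  rw [e]
  refine Finset.sum_le_sum fun κ _ => ?_
  have hw := wt_nonneg h k.1 k.2 κ (d.st κ v)
  have hm := ma_nonneg h κ hv.le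
  by_cases ho : d.st κ v = none
  · have h1 : d.wt k.1 k.2 κ (d.st κ v) = 0 := by rw [ho]; rfl
    rw [h1]; simp
  · rw [mul_assoc]
    apply mul_le_mul_of_nonneg_left _ hw
    have h2 := hr κ v hv ho
    by_cases hx : Exc κ v
    · rw [if_pos hx]
      have h3 := norm_M_le h κ hv
      nlinarith
    · rw [if_neg hx]
      have h3 := hE κ v hv ho hx
      nlinarith

theorem z'_le2 (h : d.Ok) (hδ : 0 ≤ δ)
    (hE : ∀ κ v, v.length < d.n → d.st κ v ≠ none → ¬ Exc κ v → ‖d.M κ v‖ ≤ δ)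
    (hr : ∀ κ v, v.length < d.n → d.st κ v ≠ none → d.err κ v ≤ δ)
    (k : K I d.n) (c : Bool) {v : Node} (hv : v.length + 1 < d.n) :
    ‖d.sys.z' k (c :: v)‖ ≤ (3 * δ + d.r (c :: v)) * d.sys.α' k (c :: v)
      + 2 * d.xk' Exc k c v + 2 * d.lk' k c v := by
  have hvn : v.length < d.n := by omega
  have hb : (c :: v).length < d.n := by simp only [List.length_cons]; omega
  refine (z'_le h k hvn c).trans ?_
  have e : (3 * δ + d.r (c :: v)) * d.sys.α' k (c :: v)
      + 2 * d.xk' Exc k c v + 2 * d.lk' k c v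
      = ∑ κ, d.wt k.1 k.2 κ (d.st κ v) * ((3 * δ + d.r (c :: v)) * d.ma κ (c :: v)
        + 2 * (if d.st κ (c :: v) = d.st κ v ∧ Exc κ (c :: v) then d.ma κ (c :: v) else 0)
        + 2 * (if d.st κ (c :: v) ≠ d.st κ v then d.ma κ (c :: v) else 0)) := by
    show (3 * δ + d.r (c :: v)) * (∑ κ, d.wt k.1 k.2 κ (d.st κ v) * d.ma κ (c :: v))
      + 2 * d.xk' Exc k c v + 2 * d.lk' k c v = _
    unfold xk' lk'
    rw [Finset.mul_sum, Finset.mul_sum, Finset.mul_sum, ← Finset.sum_add_distrib,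
      ← Finset.sum_add_distrib]
    exact Finset.sum_congr rfl fun κ _ => by ring
  rw [e]
  refine Finset.sum_le_sum fun κ _ => ?_
  have hw := wt_nonneg h k.1 k.2 κ (d.st κ v)
  have hm := ma_nonneg h κ hb.le
  have hrr := r_nonneg h hb
  by_cases ho : d.st κ v = none
  · have h1 : d.wt k.1 k.2 κ (d.st κ v) = 0 := by rw [ho]; rfl
    rw [h1]; simp
  · rw [mul_assoc]
    apply mul_le_mul_of_nonneg_left _ hw
    have h2 := hr κ v hvn ho
    have h4 := norm_M'_le h κ hb.le
    by_cases hl : d.st κ (c :: v) = d.st κ v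
    · rw [if_neg (not_not.mpr hl)]
      by_cases hx : Exc κ (c :: v)
      · rw [if_pos ⟨hl, hx⟩]
        nlinarith
      · rw [if_neg (fun h5 => hx h5.2)]
        have h5 : d.st κ (c :: v) ≠ none := by rw [hl]; exact ho
        have h6 := hE κ (c :: v) hb h5 hx
        have h7 := M'_le_M h κ hb
        nlinarith
    · rw [if_neg (fun h5 => hl h5.1), if_pos hl]
      nlinarith

/-- a pair which is neither good nor dominated by exceptional letters -/
theorem not_good (h : d.Ok) (hδ : 0 < δ)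
    (hE : ∀ κ v, v.length < d.n → d.st κ v ≠ none → ¬ Exc κ v → ‖d.M κ v‖ ≤ δ)
    (hr : ∀ κ v, v.length < d.n → d.st κ v ≠ none → d.err κ v ≤ δ)
    (k : K I d.n) {v : Node} (hv : v.length + 1 < d.n) (hg : ¬ d.Good δ k v)
    (hB : ¬ d.BX Exc δ k v) :
    δ ^ 2 * d.sys.α k v ≤ 4 * δ ^ 2 * (d.sys.dα k v ^ 2 / d.sys.α k v)
      + δ * (d.r (true :: v) + d.r (false :: v)) * d.sys.α k v
      + 4 * δ * (d.lk' k true v + d.lk' k false v) := by
  have hvn : v.length < d.n := by omega
  have hb : ∀ c : Bool, (c :: v).length < d.n := by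
    intro c; simp only [List.length_cons]; omega
  have hok := sys_ok h
  have hα := hok.α0 k v hvn
  have hx := xk_nonneg (Exc := Exc) h k hvn
  have hx1 := xk'_nonneg (Exc := Exc) h k true hvn
  have hx2 := xk'_nonneg (Exc := Exc) h k false hvn
  have hl1 := lk'_nonneg h k true hvn
  have hl2 := lk'_nonneg h k false hvn
  have hr1 := r_nonneg h (hb true)
  have hr2 := r_nonneg h (hb false)
  have hdq : 0 ≤ d.sys.dα k v ^ 2 / d.sys.α k v := div_nonneg (sq_nonneg _) hα
  unfold BX at hB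
  rw [not_le] at hB
  have hαpos : 0 < d.sys.α k v := by
    rcases eq_or_lt_of_le hα with h0 | h0
    · rw [← h0] at hB; linarith
    · exact h0
  have hz := z_le2 h hδ.le hE hr k hvn
  -- departure is fine
  have hz1 : ‖d.sys.z k v‖ ≤ 8 * δ * d.sys.α k v := by nlinarith
  unfold Good at hg
  have hg2 : ∃ c : Bool, 8 * δ * d.sys.α' k (c :: v) < ‖d.sys.z' k (c :: v)‖ := by
    by_contra hcon
    push Not at hcon
    exact hg ⟨hv, hz1, hcon⟩
  obtain ⟨c, hc⟩ := hg2
  have hz2 := z'_le2 h hδ.le hE hr k c hv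
  have hα' := hok.α0' k (c :: v) (hb c).le
  have hrc := r_nonneg h (hb c)
  have hrs : d.r (c :: v) ≤ d.r (true :: v) + d.r (false :: v) := by
    cases c <;> linarith
  have hls : d.lk' k c v ≤ d.lk' k true v + d.lk' k false v := by
    cases c <;> linarith
  have hxs : d.xk' Exc k c v ≤ d.xk' Exc k true v + d.xk' Exc k false v := by
    cases c <;> linarith
  have hxc := xk'_nonneg (Exc := Exc) h k c hvn
  have hlc := lk'_nonneg h k c hvn
  have p1 : 0 ≤ 4 * δ ^ 2 * (d.sys.dα k v ^ 2 / d.sys.α k v) := by positivity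
  have p2 : 0 ≤ δ * (d.r (true :: v) + d.r (false :: v)) * d.sys.α k v := by positivity
  have p3 : 0 ≤ 4 * δ * (d.lk' k true v + d.lk' k false v) := by positivity
  by_cases hrd : δ < d.r (c :: v)
  · -- large cut at the child
    have h1 : δ ^ 2 * d.sys.α k v ≤ δ * (d.r (true :: v) + d.r (false :: v)) * d.sys.α k v := by
      apply mul_le_mul_of_nonneg_right _ hα
      nlinarith
    linarith
  · push Not at hrd
    have h2 : 2 * δ * d.sys.α' k (c :: v) < d.xk' Exc k c v + d.lk' k c v := by nlinarith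
    by_cases hhalf : d.sys.α' k (c :: v) < d.sys.α k v / 2
    · -- light child
      have h3 : d.sys.α k v ^ 2 ≤ 4 * d.sys.dα k v ^ 2 := by
        have e1 : d.sys.dα k v = (d.sys.α' k (true :: v) - d.sys.α' k (false :: v)) / 2 := rfl
        have e2 := hok.αm k v hvn
        have h4 : d.sys.dα k v = d.sys.α' k (true :: v) - d.sys.α k v := by rw [e1, e2]; ring
        have h5 : d.sys.dα k v = d.sys.α k v - d.sys.α' k (false :: v) := by rw [e1, e2]; ring
        cases c
        · have h6 : d.sys.α k v / 2 ≤ d.sys.dα k v := by rw [h5]; linarith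
          nlinarith
        · have h6 : d.sys.α k v / 2 ≤ -d.sys.dα k v := by rw [h4]; linarith
          nlinarith
      have h7 : d.sys.α k v ≤ 4 * (d.sys.dα k v ^ 2 / d.sys.α k v) := by
        rw [← mul_div_assoc, le_div_iff₀ hαpos]
        nlinarith
      have h8 : δ ^ 2 * d.sys.α k v ≤ 4 * δ ^ 2 * (d.sys.dα k v ^ 2 / d.sys.α k v) := by
        have := mul_le_mul_of_nonneg_left h7 (sq_nonneg δ)
        linarith
      linarith
    · push Not at hhalf
      have h3 : δ * d.sys.α k v < 4 * d.lk' k c v := by nlinarith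
      have h4 : δ ^ 2 * d.sys.α k v ≤ 4 * δ * (d.lk' k true v + d.lk' k false v) := by
        have := mul_le_mul_of_nonneg_left h3.le hδ.le
        nlinarith
      linarith

/-- weights of the exceptional part of a letter -/
noncomputable def Wx (d : Dat ι I Q) (Exc : ι → Node → Prop) (κ : ι) (v : Node) : ℝ :=
  (if Exc κ v then d.ma κ v else 0)
  + ((if d.st κ (true :: v) = d.st κ v ∧ Exc κ (true :: v) then d.ma κ (true :: v) else 0)
  + (if d.st κ (false :: v) = d.st κ v ∧ Exc κ (false :: v) then d.ma κ (false :: v) else 0)) / 2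

/-- lost part of a letter -/
noncomputable def Lx (d : Dat ι I Q) (κ : ι) (v : Node) : ℝ :=
  (if d.st κ (true :: v) ≠ d.st κ v then d.ma κ (true :: v) else 0)
  + (if d.st κ (false :: v) ≠ d.st κ v then d.ma κ (false :: v) else 0)

theorem Wx_nonneg (h : d.Ok) (κ : ι) {v : Node} (hv : v.length < d.n) : 0 ≤ d.Wx Exc κ v := by
  have h0 := ma_nonneg h κ hv.le
  have h1 := ma_nonneg h κ (v := true :: v) (by simp only [List.length_cons]; omega)
  have h2 := ma_nonneg h κ (v := false :: v) (by simp only [List.length_cons]; omega)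
  unfold Wx
  split_ifs <;> linarith

theorem Wx_le (h : d.Ok) (κ : ι) {v : Node} (hv : v.length < d.n) :
    d.Wx Exc κ v ≤ 2 * d.ma κ v := by
  have h0 := ma_nonneg h κ hv.le
  have h1 := ma_nonneg h κ (v := true :: v) (by simp only [List.length_cons]; omega)
  have h2 := ma_nonneg h κ (v := false :: v) (by simp only [List.length_cons]; omega)
  have h3 := ma_eq (d := d) κ hv
  unfold Wx
  split_ifs <;> linarith

theorem Lx_nonneg (h : d.Ok) (κ : ι) {v : Node} (hv : v.length < d.n) : 0 ≤ d.Lx κ v := by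
  have h1 := ma_nonneg h κ (v := true :: v) (by simp only [List.length_cons]; omega)
  have h2 := ma_nonneg h κ (v := false :: v) (by simp only [List.length_cons]; omega)
  unfold Lx
  split_ifs <;> linarith

/-- energy of one letter at `v` -/
theorem letter (h : d.Ok) (hδ : 0 ≤ δ)
    (hE : ∀ κ v, v.length < d.n → d.st κ v ≠ none → ¬ Exc κ v → ‖d.M κ v‖ ≤ δ)
    (κ : ι) {v : Node} (hv : v.length + 1 < d.n) (ho : d.st κ v ≠ none) :
    d.ma κ v * ‖d.dM κ v‖ ^ 2 ≤ d.Wx Exc κ v * ‖d.dM κ v‖ ^ 2 + d.Lx κ v / 2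
      + 8 * δ ^ 2 * d.ma κ v
      + (d.r (true :: v) ^ 2 * d.ma κ (true :: v) + d.r (false :: v) ^ 2 * d.ma κ (false :: v)) := by
  have hvn : v.length < d.n := by omega
  have hb : ∀ c : Bool, (c :: v).length < d.n := by
    intro c; simp only [List.length_cons]; omega
  have h0 := ma_nonneg h κ hvn.le
  have hm : ∀ c : Bool, 0 ≤ d.ma κ (c :: v) := fun c => ma_nonneg h κ (hb c).le
  have hj := norm_dM_le_one h κ hvn
  have hj0 := norm_nonneg (d.dM κ v)
  have hj2 : ‖d.dM κ v‖ ^ 2 ≤ 1 := by nlinarith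
  have hj3 : 0 ≤ ‖d.dM κ v‖ ^ 2 := sq_nonneg _
  have e0 := ma_eq (d := d) κ hvn
  have hL := Lx_nonneg h κ hvn
  by_cases hx : Exc κ v
  · have h1 : d.ma κ v ≤ d.Wx Exc κ v := by
      unfold Wx
      rw [if_pos hx]
      have h1 := hm true
      have h2 := hm false
      split_ifs <;> linarith
    have h2 := mul_le_mul_of_nonneg_right h1 hj3
    have h3 := mul_nonneg (sq_nonneg (d.r (true :: v))) (hm true)
    have h4 := mul_nonneg (sq_nonneg (d.r (false :: v))) (hm false)
    have h5 : 0 ≤ 8 * δ ^ 2 * d.ma κ v := by positivity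
    linarith
  · have hM := hE κ v hvn ho hx
    -- child by child
    have key : ∀ c : Bool, d.ma κ (c :: v) / 2 * ‖d.dM κ v‖ ^ 2
        ≤ (if d.st κ (c :: v) = d.st κ v ∧ Exc κ (c :: v) then d.ma κ (c :: v) else 0) / 2
            * ‖d.dM κ v‖ ^ 2
          + (if d.st κ (c :: v) ≠ d.st κ v then d.ma κ (c :: v) else 0) / 2
          + 4 * δ ^ 2 * d.ma κ (c :: v) + d.r (c :: v) ^ 2 * d.ma κ (c :: v) := by
      intro c
      have hc := hm c
      have q1 : 0 ≤ 4 * δ ^ 2 * d.ma κ (c :: v) := by positivity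
      have q2 : 0 ≤ d.r (c :: v) ^ 2 * d.ma κ (c :: v) := by positivity
      by_cases hl : d.st κ (c :: v) = d.st κ v
      · rw [if_neg (not_not.mpr hl)]
        by_cases hxc : Exc κ (c :: v)
        · rw [if_pos ⟨hl, hxc⟩]
          linarith
        · rw [if_neg (fun h5 => hxc h5.2)]
          have h5 : d.st κ (c :: v) ≠ none := by rw [hl]; exact ho
          have h6 := hE κ (c :: v) (hb c) h5 hxc
          have h7 := M'_le_M h κ (hb c)
          have h8 := dM_le_child (d := d) κ hvn c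
          have hrc := r_nonneg h (hb c)
          have h9 : ‖d.dM κ v‖ ≤ 2 * δ + d.r (c :: v) := by linarith
          have h10 : ‖d.dM κ v‖ ^ 2 ≤ 8 * δ ^ 2 + 2 * d.r (c :: v) ^ 2 := by
            have h11 : ‖d.dM κ v‖ ^ 2 ≤ (2 * δ + d.r (c :: v)) ^ 2 := pow_le_pow_left₀ hj0 h9 2
            nlinarith [sq_nonneg (2 * δ - d.r (c :: v))]
          have h12 := mul_le_mul_of_nonneg_left h10 (by linarith : 0 ≤ d.ma κ (c :: v) / 2)
          simp only [zero_div, zero_mul, zero_add]
          linarith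
      · rw [if_neg (fun h5 => hl h5.1), if_pos hl]
        simp only [zero_div, zero_mul, zero_add]
        have h12 := mul_le_mul_of_nonneg_left hj2 (by linarith : 0 ≤ d.ma κ (c :: v) / 2)
        linarith
    have k1 := key true
    have k2 := key false
    have eW : d.Wx Exc κ v * ‖d.dM κ v‖ ^ 2
        = (if d.st κ (true :: v) = d.st κ v ∧ Exc κ (true :: v) then d.ma κ (true :: v) else 0) / 2
            * ‖d.dM κ v‖ ^ 2
          + (if d.st κ (false :: v) = d.st κ v ∧ Exc κ (false :: v) then d.ma κ (false :: v)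
            else 0) / 2 * ‖d.dM κ v‖ ^ 2 := by
      unfold Wx
      rw [if_neg hx]
      ring
    have eL : d.Lx κ v / 2
        = (if d.st κ (true :: v) ≠ d.st κ v then d.ma κ (true :: v) else 0) / 2
          + (if d.st κ (false :: v) ≠ d.st κ v then d.ma κ (false :: v) else 0) / 2 := by
      unfold Lx
      ring
    rw [eW, eL]
    have e1 : d.ma κ v * ‖d.dM κ v‖ ^ 2
        = d.ma κ (true :: v) / 2 * ‖d.dM κ v‖ ^ 2 + d.ma κ (false :: v) / 2 * ‖d.dM κ v‖ ^ 2 := by
      rw [e0]; ring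
    have e2 : 8 * δ ^ 2 * d.ma κ v
        = 4 * δ ^ 2 * d.ma κ (true :: v) + 4 * δ ^ 2 * d.ma κ (false :: v) := by
      rw [e0]; ring
    rw [e1, e2]
    linarith

end bad

end Dat

end Vale.Agent.P091.T.H103
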