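import Vale.Agent.P091.T.H103.NodeB
import Vale.Agent.P091.H413.Sys4

/-! # INST: Lemma E for one epoch and one lightness level -/

set_option linter.unusedSectionVars false

namespace Vale.Agent.P091.T.H103

open Vale.Agent.P091.H413

theorem S_mono_n (m : ℕ) {F : Node → ℝ} (v : Node)
    (h : ∀ w : Node, w.length < m + 1 + v.length → 0 ≤ F w) : S m F v ≤ S (m + 1) F v := by
  induction m generalizing v with
  | zero =>
    have := h v (by omega)
    simp only [S]
    linarith
  | succ m ih =>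
    have h1 := ih (true :: v) (fun w hw => h w (by simp only [List.length_cons] at hw; omega))
    have h2 := ih (false :: v) (fun w hw => h w (by simp only [List.length_cons] at hw; omega))
    have e1 : S (m + 1) F v = F v + (S m F (true :: v) + S m F (false :: v)) / 2 := rfl
    have e2 : S (m + 1 + 1) F v
        = F v + (S (m + 1) F (true :: v) + S (m + 1) F (false :: v)) / 2 := rfl
    rw [e1, e2]
    linarith

namespace Dat

variable {ι I Q : Type} [Fintype ι] [Fintype I] [Fintype Q] {d : Dat ι I Q}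

open Classical

variable {Exc : ι → Node → Prop} {δ : ℝ}

theorem S_r_le (h : d.Ok) (m : ℕ) (v : Node) (hm : m + v.length ≤ d.n) :
    S m d.r v ≤ d.av v (d.f' v) := by
  induction m generalizing v with
  | zero =>
    have := av_nonneg (d := d) (v := v) (by omega) (F := d.f' v)
      fun x hx _ => f'_nonneg h (by omega) hx
    simpa [S] using this
  | succ m ih =>
    have h1 := ih (true :: v) (by simp only [List.length_cons]; omega)
    have h2 := ih (false :: v) (by simp only [List.length_cons]; omega)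
    have e1 : S (m + 1) d.r v = d.r v + (S m d.r (true :: v) + S m d.r (false :: v)) / 2 := rfl
    have e2 := av_eq (d := d) (v := v) (by omega) (d.f v)
    have e3 : d.r v = d.av v (d.f' v) - d.av v (d.f v) := rfl
    have e4 : d.av (true :: v) (d.f' (true :: v)) = d.av (true :: v) (d.f v) := rfl
    have e5 : d.av (false :: v) (d.f' (false :: v)) = d.av (false :: v) (d.f v) := rfl
    rw [e4] at h1
    rw [e5] at h2
    rw [e1]
    linarith

theorem removed_le (h : d.Ok) {v : Node} (hv : v.length < d.n) :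
    ∑ k, max (d.sys.α' k v - d.sys.α k v) 0 ≤ d.lm v := by
  have key : ∀ k : K I d.n, max (d.sys.α' k v - d.sys.α k v) 0
      ≤ ∑ κ, d.wt k.1 k.2 κ (d.st' κ v) * (if d.st κ v ≠ d.st' κ v then d.ma κ v else 0) := by
    intro k
    have hnn : 0 ≤ ∑ κ, d.wt k.1 k.2 κ (d.st' κ v)
        * (if d.st κ v ≠ d.st' κ v then d.ma κ v else 0) := by
      apply Finset.sum_nonneg
      intro κ _
      apply mul_nonneg (wt_nonneg h _ _ _ _)
      split_ifs
      · exact ma_nonneg h κ hv.le
      · exact le_rfl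
    apply max_le _ hnn
    by_cases hm : (k.1 : ℕ) = v.length
    · have e1 : d.sys.α' k v = 0 := by
        show ∑ κ, d.wt k.1 k.2 κ (d.st' κ v) * d.ma κ v = 0
        apply Finset.sum_eq_zero
        intro κ _
        rw [wt'_new h κ _ _ hv.le hm.ge, zero_mul]
      have e2 := (sys_ok h).α0 k v hv
      linarith
    · show ∑ κ, d.wt k.1 k.2 κ (d.st' κ v) * d.ma κ v
        - ∑ κ, d.wt k.1 k.2 κ (d.st κ v) * d.ma κ v ≤ _
      rw [← Finset.sum_sub_distrib]
      refine Finset.sum_le_sum fun κ _ => ?_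
      rw [wt_old h κ _ _ hv hm]
      by_cases h1 : d.st κ v = d.st' κ v
      · rw [if_pos h1, if_neg (not_not.mpr h1)]
        linarith
      · rw [if_neg h1, if_pos h1]
        linarith
  refine (Finset.sum_le_sum fun k _ => key k).trans ?_
  rw [Finset.sum_comm]
  unfold lm
  refine Finset.sum_le_sum fun κ _ => ?_
  have h0 := ma_nonneg h κ hv.le
  refine (sum_wt_mul_le h κ (d.st' κ v) (by split_ifs <;> linarith) Finset.univ).trans
    (le_of_eq ?_)
  by_cases h2 : d.st' κ v ≠ none <;> by_cases h3 : d.st κ v ≠ d.st' κ v <;> simp [h2, h3]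

theorem norm_dX_le (h : d.Ok) (κ : ι) {v : Node} (hv : v.length < d.n) :
    ‖d.dX κ v‖ ≤ d.ma κ v := by
  have h1 := norm_DC_le (d.n - v.length - 1) (f := d.A κ) (g := d.a κ) v
    (fun x hx _ => h.Aa κ x (by omega))
  have e3 : d.n - v.length - 1 + 1 = d.n - v.length := by omega
  rw [e3] at h1
  exact h1

theorem em_child (h : d.Ok) (c : Bool) {v : Node} (hv : v.length < d.n) :
    (∑ κ, if d.st κ v ≠ none then d.err κ v * d.ma κ (c :: v) else 0) ≤ 2 * d.em v := by
  have hb : ∀ c : Bool, (c :: v).length ≤ d.n := by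
    intro c; simp only [List.length_cons]; omega
  unfold em
  rw [Finset.mul_sum]
  refine Finset.sum_le_sum fun κ _ => ?_
  split_ifs
  · have h1 := ma_eq (d := d) κ hv
    have h2 := ma_nonneg h κ (hb true)
    have h3 := ma_nonneg h κ (hb false)
    have h4 := h.err0 κ v
    have h5 : d.ma κ (c :: v) ≤ 2 * d.ma κ v := by
      cases c <;> linarith
    nlinarith
  · simp

/-- total energy of the bad pairs -/
theorem bad_le (h : d.Ok) (hδ : 0 < δ) (hδ1 : δ ≤ 1) {hh m er eps N : ℝ} (heps : 0 ≤ eps)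
    (hE : ∀ κ v, v.length < d.n → d.st κ v ≠ none → ¬ Exc κ v → ‖d.M κ v‖ ≤ δ)
    (hr : ∀ κ v, v.length < d.n → d.st κ v ≠ none → d.err κ v ≤ δ)
    (hx : ∀ v, v.length < d.n → d.xm Exc v ≤ eps)
    (hm : S d.n d.lm [] ≤ m) (her : S d.n d.em [] ≤ er)
    (hen : S d.n (fun v => ∑ k, d.sys.dα k v ^ 2 / d.sys.α k v) [] ≤ 2 * hh)
    (hN : ∀ β : ι → Node → ℝ, (∀ κ v, 0 ≤ β κ v) → (∀ κ v, v.length < d.n → β κ v ≤ d.ma κ v) →
      (∀ κ v, β κ v ≠ 0 → d.st κ v ≠ none) →
      (∀ v, v.length < d.n → ∑ κ, β κ v ≤ 12 * eps / δ) →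
      S d.n (fun v => ∑ κ, β κ v * ‖d.dM κ v‖ ^ 2) [] ≤ N) :
    S d.n (fun v => ∑ k, if d.Good δ k v then 0 else d.sys.α k v * ‖d.sys.τ k v‖ ^ 2) []
      ≤ 6 * N + 260 * m + 128 * δ ^ 2 * hh + 84 + 2 * er := by
  obtain ⟨n, hn⟩ : ∃ n, d.n = n + 1 := ⟨d.n - 1, by have := h.n0; omega⟩
  have hS : ∀ F : Node → ℝ, S d.n F [] = S (n + 1) F [] := fun F => by rw [hn]
  have hN1 := hN (d.β1 Exc δ) (β1_nonneg h) (fun κ v hv => β1_le h κ hv) (fun κ v => β1_live κ v)
    (fun v _ => sum_β1_le h hδ heps hx)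
  have hN2 := hN (d.β2 Exc) (β2_nonneg h) (fun κ v hv => β2_le h κ hv) (fun κ v => β2_live κ v)
    (fun v _ => (sum_β2_le h heps hx).trans (by
      rw [le_div_iff₀ hδ]; nlinarith))
  have h1 : S d.n (fun v => ∑ k, if d.Good δ k v then 0 else
        d.sys.α k v * ‖d.sys.τ k v‖ ^ 2) []
      ≤ S n (fun v => 2 * ∑ κ, d.β1 Exc δ κ v * ‖d.dM κ v‖ ^ 2
        + (4 * ∑ κ, d.β2 Exc κ v * ‖d.dM κ v‖ ^ 2
        + (65 * d.lm (true :: v) + (65 * d.lm (false :: v)
        + (64 * δ ^ 2 * ∑ k, d.sys.dα k v ^ 2 / d.sys.α k v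
        + (20 * d.r (true :: v) + (20 * d.r (false :: v) + 2 * d.em v))))))) [] + 4 := by
    rw [hS]
    apply S_last
    · intro w hw
      simp only [List.length_nil, add_zero] at hw
      have := node_bad h hδ hδ1 hE hr (v := w) (by omega)
      linarith
    · intro w hw
      simp only [List.length_nil, add_zero] at hw
      have hw2 : w.length < d.n := by omega
      -- all classes: at most `(1 + δ)²`
      have h2 : (∑ k, if d.Good δ k w then 0 else d.sys.α k w * ‖d.sys.τ k w‖ ^ 2)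
          ≤ ∑ k : K I d.n, ∑ κ, d.wt k.1 k.2 κ (d.st κ w) * (4 * d.ma κ w) := by
        refine Finset.sum_le_sum fun k _ => ?_
        have g1 : ∑ κ, d.wt k.1 k.2 κ (d.st κ w) * d.ma κ w * (‖d.dM κ w‖ + d.err κ w) ^ 2
            ≤ ∑ κ, d.wt k.1 k.2 κ (d.st κ w) * (4 * d.ma κ w) := by
          refine Finset.sum_le_sum fun κ _ => ?_
          by_cases ho : d.st κ w = none
          · have : d.wt k.1 k.2 κ (d.st κ w) = 0 := by rw [ho]; rfl
            rw [this]; simp
          · rw [mul_assoc]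
            apply mul_le_mul_of_nonneg_left _ (wt_nonneg h _ _ _ _)
            have q1 := norm_dM_le_one h κ hw2
            have q2 := hr κ w hw2 ho
            have q3 := norm_nonneg (d.dM κ w)
            have q4 := h.err0 κ w
            have q5 : (‖d.dM κ w‖ + d.err κ w) ^ 2 ≤ 4 := by nlinarith
            have q6 := mul_le_mul_of_nonneg_left q5 (ma_nonneg h κ hw2.le)
            linarith
        have g2 := tau_le h k hw2
        split_ifs
        · exact Finset.sum_nonneg fun κ _ => mul_nonneg (wt_nonneg h _ _ _ _)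
            (by have := ma_nonneg h κ hw2.le; linarith)
        · exact g2.trans g1
      refine h2.trans ?_
      rw [Finset.sum_comm]
      have h3 : ∑ κ, ∑ k : K I d.n, d.wt k.1 k.2 κ (d.st κ w) * (4 * d.ma κ w)
          ≤ ∑ κ, 4 * d.ma κ w := by
        refine Finset.sum_le_sum fun κ _ => ?_
        have q := ma_nonneg h κ hw2.le
        refine (sum_wt_mul_le h κ (d.st κ w) (by linarith) Finset.univ).trans ?_
        split_ifs <;> linarith
      refine h3.trans ?_
      rw [← Finset.mul_sum]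
      have := sum_ma_le h hw2.le
      linarith
  refine h1.trans ?_
  rw [S_add, S_add, S_add, S_add, S_add, S_add, S_add, S_smul, S_smul, S_smul, S_smul, S_smul,
    S_smul, S_smul, S_smul]
  have nn1 : ∀ β : ι → Node → ℝ, (∀ κ v, 0 ≤ β κ v) → ∀ w : Node,
      0 ≤ ∑ κ, β κ w * ‖d.dM κ w‖ ^ 2 := fun β hβ w =>
    Finset.sum_nonneg fun κ _ => mul_nonneg (hβ κ w) (sq_nonneg _)
  have a1 := S_mono_n n (F := fun v => ∑ κ, d.β1 Exc δ κ v * ‖d.dM κ v‖ ^ 2) []
    (fun w _ => nn1 _ (β1_nonneg h) w)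
  have a2 := S_mono_n n (F := fun v => ∑ κ, d.β2 Exc κ v * ‖d.dM κ v‖ ^ 2) []
    (fun w _ => nn1 _ (β2_nonneg h) w)
  have a3 := S_child_le n (F := d.lm) []
    (fun w hw => lm_nonneg h (by simp only [List.length_nil] at hw; omega)) true
  have a4 := S_child_le n (F := d.lm) []
    (fun w hw => lm_nonneg h (by simp only [List.length_nil] at hw; omega)) false
  have a5 := S_mono_n n (F := fun v => ∑ k, d.sys.dα k v ^ 2 / d.sys.α k v) []
    (fun w hw => Finset.sum_nonneg fun k _ => div_nonneg (sq_nonneg _)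
      ((sys_ok h).α0 k w (by simp only [List.length_nil] at hw; omega)))
  have a6 := S_child_le n (F := d.r) []
    (fun w hw => r_nonneg h (by simp only [List.length_nil] at hw; omega)) true
  have a7 := S_child_le n (F := d.r) []
    (fun w hw => r_nonneg h (by simp only [List.length_nil] at hw; omega)) false
  have a8 := S_mono_n n (F := d.em) []
    (fun w hw => em_nonneg h (by simp only [List.length_nil] at hw; omega))
  have a9 := S_r_le h (n + 1) [] (by simp; omega)
  have a10 : d.av [] (d.f' []) ≤ 1 := h.f1 [] h.n0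
  rw [hS] at hm her hen hN1 hN2
  have b1 := mul_le_mul_of_nonneg_left (a5.trans hen) (by positivity : 0 ≤ 64 * δ ^ 2)
  linarith

end Dat

/-- **INST.**  One epoch, one lightness level. -/
theorem inst : ∃ C : ℝ, 0 < C ∧ ∀ (ι I Q : Type) [Fintype ι] [Fintype I] [Fintype Q]
    (d : Dat ι I Q) (Exc : ι → Node → Prop) (δ h Iv m er eps N : ℝ),
    d.Ok → 0 < δ → δ ≤ 1 → 0 ≤ h → 0 ≤ Iv → 0 ≤ m → 0 ≤ er → 0 ≤ eps → 0 ≤ N →
    (∀ κ v, v.length < d.n → d.st κ v ≠ none → ¬ Exc κ v → ‖d.M κ v‖ ≤ δ) →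
    (∀ κ v, v.length < d.n → d.st κ v ≠ none → d.err κ v ≤ δ) →
    (∀ v, v.length < d.n → d.xm Exc v ≤ eps) →
    S d.n d.lm [] ≤ m → S d.n d.em [] ≤ er →
    S d.n (fun v => ∑ k, d.sys.dα k v ^ 2 / d.sys.α k v) [] ≤ 2 * h →
    S d.n (fun v => ∑ q, d.sys.dG q v ^ 2 / d.sys.G q v) [] ≤ Iv →
    (∀ β : ι → Node → ℝ, (∀ κ v, 0 ≤ β κ v) → (∀ κ v, v.length < d.n → β κ v ≤ d.ma κ v) →
      (∀ κ v, β κ v ≠ 0 → d.st κ v ≠ none) →
      (∀ v, v.length < d.n → ∑ κ, β κ v ≤ 12 * eps / δ) →
      S d.n (fun v => ∑ κ, β κ v * ‖d.dM κ v‖ ^ 2) [] ≤ N) →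
    ∀ c : Bool, S (d.n - 1) (fun v => ‖∑ κ, d.dX κ (c :: v) *
        (if d.st κ v = none then 0 else d.dM κ v)‖) []
      ≤ C * (δ * h + √((1 + m + h + Iv) * (1 + m + Iv + √(Iv * h)))
        + √(h * (1 + m + er + N)) + er + m) := by
  classical
  obtain ⟨C, hC, hLE⟩ := lemmaE
  refine ⟨1000 * C + 8, by positivity, ?_⟩
  intro ι I Q _ _ _ d Exc δ h Iv m er eps N hok hδ hδ1 hh hIv hm her heps hN0 hE hr hx hlm hem
    hen hval hN c
  obtain ⟨n, hn⟩ : ∃ n, d.n = n + 1 := ⟨d.n - 1, by have := hok.n0; omega⟩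
  have hS : ∀ F : Node → ℝ, S d.n F [] = S (n + 1) F [] := fun F => by rw [hn]
  have hbad := Dat.bad_le hok hδ hδ1 (hh := h) heps hE hr hx hlm hem hen hN
  set b := 6 * N + 260 * m + 128 * δ ^ 2 * h + 84 + 2 * er with hb
  have hb0 : 0 ≤ b := by positivity
  have hrem : S d.n (fun v => ∑ k, max (d.sys.α' k v - d.sys.α k v) 0) [] ≤ m := by
    refine (S_mono d.n [] fun w hw => ?_).trans hlm
    exact Dat.removed_le hok (by simpa using hw)
  have hgood : ∀ k v, v.length < d.n → d.Good δ k v → ‖d.sys.z k v‖ ≤ 8 * δ * d.sys.α k v ∧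
      ∀ c : Bool, ‖d.sys.z' k (c :: v)‖ ≤ 8 * δ * d.sys.α' k (c :: v) :=
    fun k v _ hg => ⟨hg.2.1, hg.2.2⟩
  have hmain := (hLE _ _ d.sys d.n (fun k v => d.Good δ k v) h Iv m (8 * δ) b (Dat.sys_ok hok) hh
    hIv hm (by positivity) hb0 hen hval hrem hgood hbad).2 c
  -- letters
  have hlet : S (d.n - 1) (fun v => ‖∑ κ, d.dX κ (c :: v) *
        (if d.st κ v = none then 0 else d.dM κ v)‖) []
      ≤ S (d.n - 1) (fun v => 4 * d.sys.gain1 c v + (8 * d.em v + d.lm (c :: v))) [] := by
    apply S_mono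
    intro v hv
    have hv2 : v.length + 1 < d.n := by
      simp only [List.length_nil, add_zero] at hv; omega
    have hvn : v.length < d.n := by omega
    have hb2 : (c :: v).length < d.n := by simp only [List.length_cons]; omega
    have h1 := Dat.letters_le hok hv2 c
    have h2 := Dat.em_child hok c hvn
    have h3 : ‖(∑ κ, d.dX κ (c :: v) * (if d.st κ v = none then 0 else d.dM κ v))
        - ∑ κ, if d.st κ (c :: v) = d.st κ v ∧ d.st κ v ≠ none then
          d.dX κ (c :: v) * d.dM κ v else 0‖ ≤ d.lm (c :: v) := by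
      rw [← Finset.sum_sub_distrib]
      unfold Dat.lm
      refine norm_sum_le_of_le _ fun κ _ => ?_
      have e : d.st' κ (c :: v) = d.st κ v := rfl
      rw [e]
      have g0 := Dat.ma_nonneg hok κ hb2.le
      by_cases ho : d.st κ v = none
      · simp [ho]
      · by_cases hl : d.st κ (c :: v) = d.st κ v
        · simp [ho, hl]
        · rw [if_neg ho, if_neg (fun h4 => hl h4.1), if_pos ⟨ho, hl⟩, sub_zero, norm_mul]
          have g1 := Dat.norm_dX_le hok κ hb2
          have g2 := Dat.norm_dM_le_one hok κ hvn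
          calc _ ≤ d.ma κ (c :: v) * 1 := mul_le_mul g1 g2 (norm_nonneg _) g0
            _ = _ := mul_one _
    have h4 := norm_le_norm_add_norm_sub' (∑ κ, d.dX κ (c :: v) *
        (if d.st κ v = none then 0 else d.dM κ v))
      (∑ κ, if d.st κ (c :: v) = d.st κ v ∧ d.st κ v ≠ none then
          d.dX κ (c :: v) * d.dM κ v else 0)
    linarith
  rw [S_add, S_add, S_smul, S_smul] at hlet
  have hd1 : d.n - 1 = n := by omega
  have hS1 : ∀ F : Node → ℝ, S (d.n - 1) F [] = S n F [] := fun F => by rw [hd1]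
  rw [hS1] at hmain ⊢
  rw [hS1, hS1, hS1, hS1] at hlet
  have a3 := S_child_le n (F := d.lm) []
    (fun w hw => Dat.lm_nonneg hok (by simp only [List.length_nil] at hw; omega)) c
  have a8 := S_mono_n n (F := d.em) []
    (fun w hw => Dat.em_nonneg hok (by simp only [List.length_nil] at hw; omega))
  rw [hS] at hlm hem
  -- the square root of `h b`
  have hsq : √(h * b) ≤ 17 * √(h * (1 + m + er + N)) + 12 * (δ * h) := by
    rw [Real.sqrt_le_left (by positivity)]
    have g1 : √(h * (1 + m + er + N)) ^ 2 = h * (1 + m + er + N) :=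
      Real.sq_sqrt (by positivity)
    have g2 : 0 ≤ √(h * (1 + m + er + N)) * (δ * h) := by positivity
    have g3 : h * b ≤ 289 * (h * (1 + m + er + N)) + 144 * (δ * h) ^ 2 := by
      rw [hb]
      have q1 : 0 ≤ h * N := by positivity
      have q2 : 0 ≤ h * m := by positivity
      have q3 : 0 ≤ h * er := by positivity
      have q4 : 0 ≤ (δ * h) ^ 2 := by positivity
      nlinarith
    nlinarith
  have hX : 0 ≤ √((1 + m + h + Iv) * (1 + m + Iv + √(Iv * h))) := Real.sqrt_nonneg _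
  have hY : 0 ≤ √(h * (1 + m + er + N)) := Real.sqrt_nonneg _
  have hZ : 0 ≤ δ * h := by positivity
  have hfin : 4 * (C * (8 * δ * h + √((1 + m + h + Iv) * (1 + m + Iv + √(Iv * h))) + √(h * b)))
      ≤ 1000 * C * (δ * h + √((1 + m + h + Iv) * (1 + m + Iv + √(Iv * h)))
        + √(h * (1 + m + er + N)) + er + m) := by
    have g1 : 4 * (8 * δ * h + √((1 + m + h + Iv) * (1 + m + Iv + √(Iv * h))) + √(h * b))
        ≤ 1000 * (δ * h + √((1 + m + h + Iv) * (1 + m + Iv + √(Iv * h)))
        + √(h * (1 + m + er + N)) + er + m) := by nlinarith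
    have g2 := mul_le_mul_of_nonneg_left g1 hC.le
    linarith
  have hlast : 8 * er + 2 * m ≤ 8 * (δ * h + √((1 + m + h + Iv) * (1 + m + Iv + √(Iv * h)))
        + √(h * (1 + m + er + N)) + er + m) := by linarith
  have : (1000 * C + 8) * (δ * h + √((1 + m + h + Iv) * (1 + m + Iv + √(Iv * h)))
        + √(h * (1 + m + er + N)) + er + m)
      = 1000 * C * (δ * h + √((1 + m + h + Iv) * (1 + m + Iv + √(Iv * h)))
        + √(h * (1 + m + er + N)) + er + m)
      + 8 * (δ * h + √((1 + m + h + Iv) * (1 + m + Iv + √(Iv * h)))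
        + √(h * (1 + m + er + N)) + er + m) := by ring
  rw [this]
  linarith

end Vale.Agent.P091.T.H103
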