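import Vale.Agent.P091.T.H103.Inst
import Vale.Agent.P091.T.H43.DZok
import Vale.Agent.P091.T.H43.DatG
import Vale.Agent.P091.T.H34.Em
import Vale.Agent.P091.T8.H655.YDat
import Vale.Agent.P091.T8.H655.Asm
import Vale.Agent.P091.T.H284.StageNum
import Vale.Agent.P091.T.H284.ErrNum
import Vale.Agent.P091.T.H454.DatN
import Vale.Agent.P091.T.H233.DatX
import Vale.Agent.P091.T.H814.Exc

/-!
# P091, heart, row E1 (helper103): `P_STAGE` and `P_E1`

`inst` (H103/Inst) for the literal data `H43.DZ` of a stage; `Ok` and the last step helper43, x-side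
helper233, y-energy helper655 / 587, exceptional classes helper454 / 655 / 937 (`P_T8`), rounding
errors helper34, kernels helper120, letters off the exceptional classes helper814, numerics
helper284.
-/

set_option autoImplicit false

open Finset
open Vale.Agent.P091.Spec Vale.Agent.P091.H413 Vale.Agent.P091.T.H350
open Vale.Agent.P065.Ent
open scoped Classical

noncomputable section

namespace Vale.Agent.P091.T.H103

/-- **the gain of one stage** -/
theorem p_stage (h8 : P_T8) : H316.P_STAGE := by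
  intro s0 A C1 c hs0 hA hC1 hc
  obtain ⟨C, hC, hinst⟩ := inst
  obtain ⟨K, hK, D1, h1⟩ := H284.stage_num A C1 C c (16 * Real.pi) hA hC1 hC.le hc
  obtain ⟨D2, h2⟩ := H284.thr_num A C1 12 hA hC1
  obtain ⟨D3, h3⟩ := H284.err_num A C1 hA hC1
  obtain ⟨D4, h4⟩ := H454.nbad_dat h8 s0 C1 hs0 hC1
  obtain ⟨D5, h5⟩ := H120.exists_phi_ge' hc
  refine ⟨K, max (max (max D1 D2) (max D3 D4)) (max D5 1), ?_⟩
  intro D n ι _ d J j0 a0 Y W t hD hE ht
  have hD1 : D1 ≤ D :=
    ((le_max_left _ _).trans (le_max_left _ _)).trans ((le_max_left _ _).trans hD)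
  have hD2 : D2 ≤ D :=
    ((le_max_right _ _).trans (le_max_left _ _)).trans ((le_max_left _ _).trans hD)
  have hD3 : D3 ≤ D :=
    ((le_max_left _ _).trans (le_max_right _ _)).trans ((le_max_left _ _).trans hD)
  have hD4 : D4 ≤ D :=
    ((le_max_right _ _).trans (le_max_right _ _)).trans ((le_max_left _ _).trans hD)
  have hD5 : D5 ≤ D := (le_max_left _ _).trans ((le_max_right _ _).trans hD)
  have hDone : (1 : ℝ) ≤ D := (le_max_right _ _).trans ((le_max_right _ _).trans hD)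
  have hA0 : 0 ≤ A := by linarith
  have hDnn : 0 ≤ D := by linarith
  have hth : 0 ≤ th A D (t + 1) := by
    have h := H284.th_nonneg' hA0 hDnn (t + 1)
    exact h
  have hR : 0 ≤ K * ((1 / 2 : ℝ) ^ (t + 1) * th A D (t + 1) + D / (ll D : ℝ) ^ 3) := by
    positivity
  by_cases hj : j0 < n
  swap
  · have e : n - 1 - j0 = 0 := by omega
    rw [e]
    have e2 : SC 0 (H316.gZ d A J j0 a0 Y W t) [] = 0 := rfl
    rw [e2, norm_zero]
    exact hR
  have hF : Fam d s0 j0 a0 Y W := hE.toFam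
  have hJ : ∀ k ∈ J, IsProb k.P := fun k hk => (hE.ok k hk).P1
  have hJ' : ∀ k ∈ J, IsProb k.ρ := fun k hk => (hE.ok k hk).ρ1
  have hφ : H120.PhiGe d A J j0 a0 := h5 D d A J j0 a0 Y hD5 hE.len hE.ok
  set dd := H43.DZ d A J j0 a0 Y W t with hdd
  have hok : dd.Ok := H43.DZ_ok hF hj A hJ hJ' hφ t
  have hn : dd.n = n - j0 := rfl
  have ha : ∀ κ x, dd.a κ x = d.a κ (T.ia a0 x) := fun _ _ => rfl
  have hA' : ∀ κ x, dd.A κ x = d.A κ (T.ia a0 x) := fun _ _ => rfl
  have hf : ∀ v y, dd.f v y = cut d.p (W (j0 + v.length) (T.ia a0 v)) (T.ia a0 y) /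
      (2 * av n j0 a0 (cut d.p Y)) := fun _ _ => rfl
  have he : ∀ κ y, dd.e κ y = ch n (bb D) (-(d.r κ * (T.ia a0 y : ℕ))) := fun _ _ => rfl
  have hst : (H233.pdZ d A J j0 a0).StIff t dd.st :=
    H233.PD.StIff.of_rec _ (fun _ => rfl) (fun _ _ _ => rfl)
  have hpi0 := Real.pi_pos
  have hlm : S dd.n dd.lm [] ≤ 1 :=
    H233.S_lm_le hst (fun κ x => d.a_nonneg κ _) (fun x _ => d.a_sum _)
  have hem := H34.em_le hok (ε := 4 * Real.pi / 2 ^ bb D) (m := 1) (by positivity)
    (fun κ v w _ hw => (H43.err_some d A J j0 a0 Y W t hw).le) hlm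
  have hb1 : (1 : ℝ) ≤ 2 ^ bb D := one_le_pow₀ (by norm_num)
  have her : 2 * (4 * Real.pi / 2 ^ bb D) * (1 + 1) ≤ 16 * Real.pi := by
    have h6 : 4 * Real.pi / 2 ^ bb D ≤ 4 * Real.pi := div_le_self (by positivity) hb1
    linarith
  have hen := H233.energyD_wtZ d hst hn ha hJ (fun _ _ _ => rfl) (by linarith) hC1 hDnn ht
  have hval := T8.H655.dat_y_energy hE dd hn (fun v y _ _ _ => hf v y) (fun _ _ _ => rfl)
  have hmain := hinst ι (ZMod (2 ^ (n + bb D))) (H120.QJ J) dd (H814.ExZ d j0 a0 W t)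
    ((1 / 2 : ℝ) ^ t) ((5 * th A D (t + 1) + 4) / 2) (4 + J.length * |ep c D * D|) 1
    (2 * (4 * Real.pi / 2 ^ bb D) * (1 + 1)) (2 * Real.exp (-(th A D t / 2)))
    (D / (4 * (ll D : ℝ) ^ 20)) hok (by positivity) (pow_le_one₀ (by norm_num) (by norm_num))
    (by positivity) (by positivity) (by norm_num) (by positivity) (by positivity)
    (by positivity)
    (fun κ v hv _ hx => H814.M_le d dd hF hn hf he t κ hv.le hx)
    (fun κ v hv hs => by
      obtain ⟨w, hw⟩ := Option.ne_none_iff_exists'.1 hs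
      rw [H43.err_some d A J j0 a0 Y W t hw]
      refine (div_le_self (by positivity) ?_).trans (h3 D hD3 t ht.le)
      exact one_le_pow₀ (by norm_num))
    (H233.xm_le d hst hn ha hE ht (fun κ v _ hx => hx))
    hlm hem (by linarith) hval
    (h4 D n ι d j0 a0 Y W _ _ dd _ hD4 hF hn ha (fun v y _ => hf v y) he
      (fun κ v hv hs => H454.pres_of_mem d (by omega) (hst.ne_none.1 hs)) (h2 D hD2 t ht.le))
  have hg := H43.gain_of d dd A J t hn hA' hf he
    (fun κ v => H43.stZ_eq_none (H233.pdZ d A J j0 a0)) hmain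
  refine hg.trans (h1 D hD1 t ht _ _ _ _ _ _ J.length hE.len (by positivity) le_rfl
    (by norm_num) le_rfl (by positivity) her (by positivity) le_rfl (by positivity)
    (by linarith) (by positivity) le_rfl)

/-- **Row `P_E1`.** -/
theorem p_E1 : P_E1 := H43.p_E1_of (p_stage T8.H655.p_T8)

end Vale.Agent.P091.T.H103
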