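import Vale.Agent.P091.H413.EDefs

/-! Complex averages over the leaves of a binary tree, pairing lemmas. -/

namespace Vale.Agent.P091.T.H103

open Vale.Agent.P091.H413

/-- complex average over the leaves `n` levels below `v` -/
noncomputable def LC : ℕ → (Node → ℂ) → Node → ℂ
  | 0, f, v => f v
  | n + 1, f, v => (LC n f (true :: v) + LC n f (false :: v)) / 2

/-- half difference over the two children -/
noncomputable def DC (n : ℕ) (f : Node → ℂ) (v : Node) : ℂ :=
  (LC n f (true :: v) - LC n f (false :: v)) / 2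

theorem LC_succ (n : ℕ) (f : Node → ℂ) (v : Node) :
    LC (n + 1) f v = (LC n f (true :: v) + LC n f (false :: v)) / 2 := rfl

theorem Lf_succ (n : ℕ) (f : Node → ℝ) (v : Node) :
    Lf (n + 1) f v = (Lf n f (true :: v) + Lf n f (false :: v)) / 2 := rfl

theorem suf_child {b : Bool} {v x : Node} (h : (b :: v) <:+ x) : v <:+ x :=
  (List.suffix_cons b v).trans h

theorem LC_const_mul (n : ℕ) (c : ℂ) (f : Node → ℂ) (v : Node) :
    LC n (fun x => c * f x) v = c * LC n f v := by
  induction n generalizing v with
  | zero => rfl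
  | succ n ih => simp only [LC_succ, ih]; ring

theorem Lf_const_mul (n : ℕ) (c : ℝ) (f : Node → ℝ) (v : Node) :
    Lf n (fun x => c * f x) v = c * Lf n f v := by
  induction n generalizing v with
  | zero => rfl
  | succ n ih => simp only [Lf_succ, ih]; ring

theorem LC_congr (n : ℕ) {f g : Node → ℂ} (v : Node)
    (h : ∀ x : Node, x.length = n + v.length → v <:+ x → f x = g x) :
    LC n f v = LC n g v := by
  induction n generalizing v with
  | zero => exact h v (by simp) (List.suffix_refl v)
  | succ n ih =>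
    simp only [LC_succ]
    rw [ih (true :: v) (fun x hx hs => h x (by simp only [List.length_cons] at hx; omega)
        (suf_child hs)),
      ih (false :: v) (fun x hx hs => h x (by simp only [List.length_cons] at hx; omega)
        (suf_child hs))]

theorem Lf_congr (n : ℕ) {f g : Node → ℝ} (v : Node)
    (h : ∀ x : Node, x.length = n + v.length → v <:+ x → f x = g x) :
    Lf n f v = Lf n g v := by
  induction n generalizing v with
  | zero => exact h v (by simp) (List.suffix_refl v)
  | succ n ih =>
    simp only [Lf_succ]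
    rw [ih (true :: v) (fun x hx hs => h x (by simp only [List.length_cons] at hx; omega)
        (suf_child hs)),
      ih (false :: v) (fun x hx hs => h x (by simp only [List.length_cons] at hx; omega)
        (suf_child hs))]

theorem Lf_mono (n : ℕ) {f g : Node → ℝ} (v : Node)
    (h : ∀ x : Node, x.length = n + v.length → v <:+ x → f x ≤ g x) :
    Lf n f v ≤ Lf n g v := by
  induction n generalizing v with
  | zero => exact h v (by simp) (List.suffix_refl v)
  | succ n ih =>
    simp only [Lf_succ]
    have h1 := ih (true :: v) (fun x hx hs => h x (by simp only [List.length_cons] at hx; omega)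
        (suf_child hs))
    have h2 := ih (false :: v) (fun x hx hs => h x (by simp only [List.length_cons] at hx; omega)
        (suf_child hs))
    linarith

theorem Lf_zero (n : ℕ) (v : Node) : Lf n (fun _ => 0) v = 0 := by
  induction n generalizing v with
  | zero => rfl
  | succ n ih => simp only [Lf_succ, ih]; ring

theorem Lf_nonneg (n : ℕ) {f : Node → ℝ} (v : Node)
    (h : ∀ x : Node, x.length = n + v.length → v <:+ x → 0 ≤ f x) : 0 ≤ Lf n f v := by
  have h1 := Lf_mono n (f := fun _ => 0) (g := f) v h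
  rwa [Lf_zero] at h1

theorem Lf_add (n : ℕ) (f g : Node → ℝ) (v : Node) :
    Lf n (fun x => f x + g x) v = Lf n f v + Lf n g v := by
  induction n generalizing v with
  | zero => rfl
  | succ n ih => simp only [Lf_succ, ih]; ring

theorem Lf_sub (n : ℕ) (f g : Node → ℝ) (v : Node) :
    Lf n (fun x => f x - g x) v = Lf n f v - Lf n g v := by
  induction n generalizing v with
  | zero => rfl
  | succ n ih => simp only [Lf_succ, ih]; ring

theorem Lf_sum {J : Type*} (s : Finset J) (n : ℕ) (f : J → Node → ℝ) (v : Node) :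
    Lf n (fun x => ∑ j ∈ s, f j x) v = ∑ j ∈ s, Lf n (f j) v := by
  classical
  induction s using Finset.induction_on with
  | empty => simp [Lf_zero]
  | insert j s hj ih =>
    simp only [Finset.sum_insert hj]
    rw [Lf_add, ih]

theorem LC_sub (n : ℕ) (f g : Node → ℂ) (v : Node) :
    LC n (fun x => f x - g x) v = LC n f v - LC n g v := by
  induction n generalizing v with
  | zero => rfl
  | succ n ih => simp only [LC_succ, ih]; ring

theorem LC_zero (n : ℕ) (v : Node) : LC n (fun _ => 0) v = 0 := by
  induction n generalizing v with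
  | zero => rfl
  | succ n ih => simp only [LC_succ, ih]; ring

theorem norm_LC_le (n : ℕ) {f : Node → ℂ} {g : Node → ℝ} (v : Node)
    (h : ∀ x : Node, x.length = n + v.length → v <:+ x → ‖f x‖ ≤ g x) :
    ‖LC n f v‖ ≤ Lf n g v := by
  induction n generalizing v with
  | zero => exact h v (by simp) (List.suffix_refl v)
  | succ n ih =>
    simp only [Lf_succ, LC_succ]
    have h1 := ih (true :: v) (fun x hx hs => h x (by simp only [List.length_cons] at hx; omega)
        (suf_child hs))
    have h2 := ih (false :: v) (fun x hx hs => h x (by simp only [List.length_cons] at hx; omega)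
        (suf_child hs))
    have h3 := norm_add_le (LC n f (true :: v)) (LC n f (false :: v))
    rw [norm_div, Complex.norm_ofNat]
    linarith

theorem norm_DC_le (n : ℕ) {f : Node → ℂ} {g : Node → ℝ} (v : Node)
    (h : ∀ x : Node, x.length = n + 1 + v.length → v <:+ x → ‖f x‖ ≤ g x) :
    ‖DC n f v‖ ≤ Lf (n + 1) g v := by
  have h1 := norm_LC_le n (f := f) (g := g) (true :: v)
    (fun x hx hs => h x (by simp only [List.length_cons] at hx; omega) (suf_child hs))
  have h2 := norm_LC_le n (f := f) (g := g) (false :: v)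
    (fun x hx hs => h x (by simp only [List.length_cons] at hx; omega) (suf_child hs))
  have h3 := norm_sub_le (LC n f (true :: v)) (LC n f (false :: v))
  unfold DC
  rw [Lf_succ, norm_div, Complex.norm_ofNat]
  linarith

/-- one average -/
theorem LC_pair {Q : Type*} (sQ : Finset Q) (m : ℕ) (v : Node) (U : Q → ℂ) (F : Q → Node → ℂ)
    (g : Node → ℂ) (β : Node → ℝ) (er : ℝ)
    (h : ∀ x : Node, x.length = m + v.length → v <:+ x →
      ‖∑ q ∈ sQ, U q * F q x - g x‖ ≤ er * β x) :
    ‖∑ q ∈ sQ, U q * LC m (F q) v - LC m g v‖ ≤ er * Lf m β v := by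
  induction m generalizing v with
  | zero => exact h v (by simp) (List.suffix_refl v)
  | succ m ih =>
    have h1 := ih (true :: v) (fun x hx hs => h x (by simp only [List.length_cons] at hx; omega)
        (suf_child hs))
    have h2 := ih (false :: v) (fun x hx hs => h x (by simp only [List.length_cons] at hx; omega)
        (suf_child hs))
    have e : ∑ q ∈ sQ, U q * LC (m + 1) (F q) v - LC (m + 1) g v
        = ((∑ q ∈ sQ, U q * LC m (F q) (true :: v) - LC m g (true :: v))
          + (∑ q ∈ sQ, U q * LC m (F q) (false :: v) - LC m g (false :: v))) / 2 := by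
      simp only [LC_succ]
      have : ∀ q ∈ sQ, U q * ((LC m (F q) (true :: v) + LC m (F q) (false :: v)) / 2)
          = U q * LC m (F q) (true :: v) / 2 + U q * LC m (F q) (false :: v) / 2 := by
        intro q _; ring
      rw [Finset.sum_congr rfl this, Finset.sum_add_distrib, ← Finset.sum_div, ← Finset.sum_div]
      ring
    rw [e, norm_div, Complex.norm_ofNat, Lf_succ]
    have h3 := norm_add_le (∑ q ∈ sQ, U q * LC m (F q) (true :: v) - LC m g (true :: v))
      (∑ q ∈ sQ, U q * LC m (F q) (false :: v) - LC m g (false :: v))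
    linarith

/-- two averages -/
theorem LC_pair2 {Q : Type*} (sQ : Finset Q) (m1 m2 : ℕ) (v1 v2 : Node)
    (F H : Q → Node → ℂ) (g k : Node → ℂ) (α β : Node → ℝ) (er : ℝ)
    (h : ∀ x : Node, x.length = m1 + v1.length → v1 <:+ x →
      ∀ y : Node, y.length = m2 + v2.length → v2 <:+ y →
      ‖∑ q ∈ sQ, F q x * H q y - g x * k y‖ ≤ er * α x * β y) :
    ‖∑ q ∈ sQ, LC m1 (F q) v1 * LC m2 (H q) v2 - LC m1 g v1 * LC m2 k v2‖
      ≤ er * Lf m1 α v1 * Lf m2 β v2 := by
  have h1 : ∀ x : Node, x.length = m1 + v1.length → v1 <:+ x →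
      ‖∑ q ∈ sQ, LC m2 (H q) v2 * F q x - LC m2 k v2 * g x‖ ≤ (er * Lf m2 β v2) * α x := by
    intro x hx hs
    have := LC_pair sQ m2 v2 (fun q => F q x) H (fun y => g x * k y) β (er * α x)
      (fun y hy hs2 => h x hx hs y hy hs2)
    rw [LC_const_mul] at this
    have e : ∑ q ∈ sQ, LC m2 (H q) v2 * F q x - LC m2 k v2 * g x
        = ∑ q ∈ sQ, F q x * LC m2 (H q) v2 - g x * LC m2 k v2 := by
      congr 1
      · exact Finset.sum_congr rfl fun q _ => mul_comm _ _
      · exact mul_comm _ _
    rw [e]
    linarith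
  have h2 := LC_pair sQ m1 v1 (fun q => LC m2 (H q) v2) F (fun x => LC m2 k v2 * g x) α
    (er * Lf m2 β v2) h1
  rw [LC_const_mul] at h2
  have e : ∑ q ∈ sQ, LC m1 (F q) v1 * LC m2 (H q) v2 - LC m1 g v1 * LC m2 k v2
      = ∑ q ∈ sQ, LC m2 (H q) v2 * LC m1 (F q) v1 - LC m2 k v2 * LC m1 g v1 := by
    congr 1
    · exact Finset.sum_congr rfl fun q _ => mul_comm _ _
    · exact mul_comm _ _
  rw [e]
  linarith

/-- average in `x`, half difference in `y` -/
theorem LC_pairD {Q : Type*} (sQ : Finset Q) (m1 m2 : ℕ) (v1 v2 : Node)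
    (F H : Q → Node → ℂ) (g k : Node → ℂ) (α β : Node → ℝ) (er : ℝ)
    (h : ∀ x : Node, x.length = m1 + v1.length → v1 <:+ x →
      ∀ y : Node, y.length = m2 + 1 + v2.length → v2 <:+ y →
      ‖∑ q ∈ sQ, F q x * H q y - g x * k y‖ ≤ er * α x * β y) :
    ‖∑ q ∈ sQ, LC m1 (F q) v1 * DC m2 (H q) v2 - LC m1 g v1 * DC m2 k v2‖
      ≤ er * Lf m1 α v1 * Lf (m2 + 1) β v2 := by
  have h1 := LC_pair2 sQ m1 m2 v1 (true :: v2) F H g k α β er
    (fun x hx hs y hy hs2 => h x hx hs y (by simp only [List.length_cons] at hy; omega)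
      (suf_child hs2))
  have h2 := LC_pair2 sQ m1 m2 v1 (false :: v2) F H g k α β er
    (fun x hx hs y hy hs2 => h x hx hs y (by simp only [List.length_cons] at hy; omega)
      (suf_child hs2))
  have e : ∑ q ∈ sQ, LC m1 (F q) v1 * DC m2 (H q) v2 - LC m1 g v1 * DC m2 k v2
      = ((∑ q ∈ sQ, LC m1 (F q) v1 * LC m2 (H q) (true :: v2)
          - LC m1 g v1 * LC m2 k (true :: v2))
        - (∑ q ∈ sQ, LC m1 (F q) v1 * LC m2 (H q) (false :: v2)
          - LC m1 g v1 * LC m2 k (false :: v2))) / 2 := by
    unfold DC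
    have : ∀ q ∈ sQ, LC m1 (F q) v1 * ((LC m2 (H q) (true :: v2) - LC m2 (H q) (false :: v2)) / 2)
        = LC m1 (F q) v1 * LC m2 (H q) (true :: v2) / 2
          - LC m1 (F q) v1 * LC m2 (H q) (false :: v2) / 2 := by
      intro q _; ring
    rw [Finset.sum_congr rfl this, Finset.sum_sub_distrib, ← Finset.sum_div, ← Finset.sum_div]
    ring
  rw [e, norm_div, Complex.norm_ofNat, Lf_succ]
  refine (div_le_div_of_nonneg_right (norm_sub_le _ _) (by norm_num)).trans ?_
  linarith

/-- half differences in both -/
theorem DC_pairD {Q : Type*} (sQ : Finset Q) (m1 m2 : ℕ) (v1 v2 : Node)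
    (F H : Q → Node → ℂ) (g k : Node → ℂ) (α β : Node → ℝ) (er : ℝ)
    (h : ∀ x : Node, x.length = m1 + 1 + v1.length → v1 <:+ x →
      ∀ y : Node, y.length = m2 + 1 + v2.length → v2 <:+ y →
      ‖∑ q ∈ sQ, F q x * H q y - g x * k y‖ ≤ er * α x * β y) :
    ‖∑ q ∈ sQ, DC m1 (F q) v1 * DC m2 (H q) v2 - DC m1 g v1 * DC m2 k v2‖
      ≤ er * Lf (m1 + 1) α v1 * Lf (m2 + 1) β v2 := by
  have h1 := LC_pairD sQ m1 m2 (true :: v1) v2 F H g k α β er
    (fun x hx hs y hy hs2 => h x (by simp only [List.length_cons] at hx; omega)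
      (suf_child hs) y hy hs2)
  have h2 := LC_pairD sQ m1 m2 (false :: v1) v2 F H g k α β er
    (fun x hx hs y hy hs2 => h x (by simp only [List.length_cons] at hx; omega)
      (suf_child hs) y hy hs2)
  have e : ∑ q ∈ sQ, DC m1 (F q) v1 * DC m2 (H q) v2 - DC m1 g v1 * DC m2 k v2
      = ((∑ q ∈ sQ, LC m1 (F q) (true :: v1) * DC m2 (H q) v2
          - LC m1 g (true :: v1) * DC m2 k v2)
        - (∑ q ∈ sQ, LC m1 (F q) (false :: v1) * DC m2 (H q) v2
          - LC m1 g (false :: v1) * DC m2 k v2)) / 2 := by
    rw [DC, ]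
    have : ∀ q ∈ sQ, DC m1 (F q) v1 * DC m2 (H q) v2
        = LC m1 (F q) (true :: v1) * DC m2 (H q) v2 / 2
          - LC m1 (F q) (false :: v1) * DC m2 (H q) v2 / 2 := by
      intro q _; unfold DC; ring
    rw [Finset.sum_congr rfl this, Finset.sum_sub_distrib, ← Finset.sum_div, ← Finset.sum_div]
    ring
  rw [e, norm_div, Complex.norm_ofNat, Lf_succ]
  refine (div_le_div_of_nonneg_right (norm_sub_le _ _) (by norm_num)).trans ?_
  have : er * ((Lf m1 α (true :: v1) + Lf m1 α (false :: v1)) / 2) * Lf (m2 + 1) β v2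
      = (er * Lf m1 α (true :: v1) * Lf (m2 + 1) β v2
        + er * Lf m1 α (false :: v1) * Lf (m2 + 1) β v2) / 2 := by ring
  rw [this]
  linarith

/-- a sum of averages -/
theorem LC_sum {J : Type*} (s : Finset J) (n : ℕ) (f : J → Node → ℂ) (v : Node) :
    LC n (fun x => ∑ j ∈ s, f j x) v = ∑ j ∈ s, LC n (f j) v := by
  classical
  induction s using Finset.induction_on with
  | empty => simp [LC_zero]
  | insert j s hj ih =>
    simp only [Finset.sum_insert hj]
    have : ∀ g h : Node → ℂ, LC n (fun x => g x + h x) v = LC n g v + LC n h v := by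
      intro g h
      have := LC_sub n g (fun x => -h x) v
      simp only [sub_neg_eq_add] at this
      rw [this]
      have h2 := LC_const_mul n (-1) h v
      simp only [neg_mul, one_mul] at h2
      rw [h2]; ring
    rw [this, ih]

theorem S_last (n : ℕ) {F G : Node → ℝ} {c : ℝ} (v : Node)
    (h : ∀ w : Node, w.length < n + v.length → F w ≤ G w)
    (hc : ∀ w : Node, w.length = n + v.length → F w ≤ c) :
    S (n + 1) F v ≤ S n G v + c := by
  induction n generalizing v with
  | zero =>
    have := hc v (by simp)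
    simp only [S]
    linarith
  | succ n ih =>
    have h1 := ih (true :: v) (fun w hw => h w (by simp only [List.length_cons] at hw; omega))
      (fun w hw => hc w (by simp only [List.length_cons] at hw; omega))
    have h2 := ih (false :: v) (fun w hw => h w (by simp only [List.length_cons] at hw; omega))
      (fun w hw => hc w (by simp only [List.length_cons] at hw; omega))
    have h3 := h v (by omega)
    have e1 : S (n + 1 + 1) F v = F v + (S (n + 1) F (true :: v) + S (n + 1) F (false :: v)) / 2 :=
      rfl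
    have e2 : S (n + 1) G v = G v + (S n G (true :: v) + S n G (false :: v)) / 2 := rfl
    rw [e1, e2]
    linarith

end Vale.Agent.P091.T.H103
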