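import Vale.Agent.P091.T.H103.Avg

/-! # One epoch, one lightness level: the data and the system `ESys` of Lemma E

Leaves = nodes of length `n`; `av v F = Lf (n - |v|) F v`.  A letter class `κ` carries at every node
`v` a status `st κ v`: `none` (not active at this level) or `some w` (activated at the node `w`,
with the frozen list of common letters `i`, weights `pi w κ i`).  Classes of Lemma E:
`k = (m, i)`, `m` = level of the activation node. -/

set_option linter.unusedSectionVars false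

namespace Vale.Agent.P091.T.H103

open Vale.Agent.P091.H413

/-- data of one epoch and one lightness level -/
structure Dat (ι I Q : Type) where
  n : ℕ
  /-- mass of the letter class at the leaf -/
  a : ι → Node → ℝ
  /-- `x`-coefficient -/
  A : ι → Node → ℂ
  /-- alive density on departure from a node, as a function of the leaf -/
  f : Node → Node → ℝ
  /-- letter of the class -/
  e : ι → Node → ℂ
  /-- common letters -/
  E : I → Node → ℂ
  /-- status on departure -/
  st : ι → Node → Option Node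
  pi : Node → ι → I → ℝ
  P : Q → Node → ℝ
  s : Node → ι → I → Node → Q → ℂ
  c : Node → ι → I → ℂ
  err : ι → Node → ℝ

namespace Dat

variable {ι I Q : Type} [Fintype ι] [Fintype I] [Fintype Q] (d : Dat ι I Q)

/-- status on arrival -/
def st' (κ : ι) : Node → Option Node
  | [] => none
  | _ :: v => d.st κ v

/-- alive density on arrival -/
def f' : Node → Node → ℝ
  | [] => d.f []
  | _ :: v => d.f v

/-- average over a node -/
noncomputable def av (v : Node) (F : Node → ℝ) : ℝ := Lf (d.n - v.length) F v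

noncomputable def avC (v : Node) (F : Node → ℂ) : ℂ := LC (d.n - v.length) F v

/-- `x`-mass of `κ` in `v` -/
noncomputable def ma (κ : ι) (v : Node) : ℝ := d.av v (d.a κ)

noncomputable def ph (w : Node) (κ : ι) : ℂ := ∑ i, (d.pi w κ i : ℂ) * d.c w κ i

/-- bias on departure, arrival -/
noncomputable def M (κ : ι) (v : Node) : ℂ := d.avC v fun y => (d.f v y : ℂ) * d.e κ y
noncomputable def M' (κ : ι) (v : Node) : ℂ := d.avC v fun y => (d.f' v y : ℂ) * d.e κ y

/-- half difference of the bias at the children -/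
noncomputable def dM (κ : ι) (v : Node) : ℂ :=
  DC (d.n - v.length - 1) (fun y => (d.f v y : ℂ) * d.e κ y) v

/-- half difference of the `x`-coefficient -/
noncomputable def dX (κ : ι) (v : Node) : ℂ := DC (d.n - v.length - 1) (d.A κ) v

/-- cut mass at a node -/
noncomputable def r (v : Node) : ℝ := d.av v (d.f' v) - d.av v (d.f v)

structure Ok : Prop where
  n0 : 0 < d.n
  a0 : ∀ κ x, x.length = d.n → 0 ≤ d.a κ x
  a1 : ∀ x, x.length = d.n → ∑ κ, d.a κ x ≤ 1
  Aa : ∀ κ x, x.length = d.n → ‖d.A κ x‖ ≤ d.a κ x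
  f0 : ∀ v x, v.length < d.n → x.length = d.n → 0 ≤ d.f v x
  fm : ∀ b v x, v.length + 1 < d.n → x.length = d.n → (b :: v) <:+ x → d.f (b :: v) x ≤ d.f v x
  f1 : ∀ v, v.length < d.n → d.av v (d.f v) ≤ 1
  e1 : ∀ κ x, x.length = d.n → ‖d.e κ x‖ ≤ 1
  E1 : ∀ i x, x.length = d.n → ‖d.E i x‖ ≤ 1
  st0 : ∀ κ, d.st κ [] = none ∨ d.st κ [] = some []
  sts : ∀ κ b v, v.length + 1 < d.n →
    d.st κ (b :: v) = none ∨ d.st κ (b :: v) = d.st κ v ∨ d.st κ (b :: v) = some (b :: v)
  pi0 : ∀ w κ i, 0 ≤ d.pi w κ i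
  pi1 : ∀ w κ, ∑ i, d.pi w κ i ≤ 1
  P0 : ∀ q x, x.length = d.n → 0 ≤ d.P q x
  P1 : ∀ x, x.length = d.n → ∑ q, d.P q x = 1
  s1 : ∀ w κ i x q, x.length = d.n → ‖d.s w κ i x q‖ ≤ 1
  c1 : ∀ w κ i, ‖d.c w κ i‖ ≤ 1
  ph1 : ∀ κ v w, v.length < d.n → d.st κ v = some w → 1 / 4 ≤ ‖d.ph w κ‖
  err0 : ∀ κ v, 0 ≤ d.err κ v
  T2 : ∀ κ v w, v.length < d.n → d.st κ v = some w → ∀ i x y, x.length = d.n → v <:+ x →
    y.length = d.n → v <:+ y →
    ‖∑ q, d.s w κ i x q * (d.P q y : ℂ) * d.E i y - d.c w κ i * d.e κ y‖ ≤ d.err κ v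

/-- weight of `κ` in the class `(m, i)` when its status is `o` -/
noncomputable def wt (m : ℕ) (i : I) (κ : ι) (o : Option Node) : ℝ :=
  match o with
  | none => 0
  | some w => if w.length = m then d.pi w κ i else 0

/-- the kernel of `κ` in the class `(m, i)` when its status is `o` -/
noncomputable def sw (m : ℕ) (i : I) (κ : ι) (o : Option Node) (x : Node) (q : Q) : ℂ :=
  match o with
  | none => 0
  | some w => if w.length = m then (d.pi w κ i : ℂ) * (d.ph w κ)⁻¹ * d.s w κ i x q / 4 else 0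

/-- classes -/
abbrev K (I : Type) (n : ℕ) := Fin (n + 1) × I

/-- the system of Lemma E -/
noncomputable def sys : ESys (K I d.n) Q where
  α k v := ∑ κ, d.wt k.1 k.2 κ (d.st κ v) * d.ma κ v
  α' k v := ∑ κ, d.wt k.1 k.2 κ (d.st' κ v) * d.ma κ v
  A k q v := ∑ κ, d.avC v fun x => d.A κ x * d.sw k.1 k.2 κ (d.st κ v) x q
  A' k q v := ∑ κ, d.avC v fun x => d.A κ x * d.sw k.1 k.2 κ (d.st' κ v) x q
  G q v := d.av v fun y => d.f v y * d.P q y
  G' q v := d.av v fun y => d.f' v y * d.P q y
  B k q v := d.avC v fun y => (d.f v y : ℂ) * (d.P q y : ℂ) * d.E k.2 y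
  B' k q v := d.avC v fun y => (d.f' v y : ℂ) * (d.P q y : ℂ) * d.E k.2 y

variable {d}

theorem wt_none (m : ℕ) (i : I) (κ : ι) : d.wt m i κ none = 0 := rfl

theorem wt_some (m : ℕ) (i : I) (κ : ι) (w : Node) :
    d.wt m i κ (some w) = if w.length = m then d.pi w κ i else 0 := rfl

theorem wt_nonneg (h : d.Ok) (m : ℕ) (i : I) (κ : ι) (o : Option Node) : 0 ≤ d.wt m i κ o := by
  rcases o with _ | w
  · exact le_rfl
  · rw [wt_some]; split_ifs
    · exact h.pi0 _ _ _
    · exact le_rfl

theorem sum_wt_le (h : d.Ok) (κ : ι) (o : Option Node) :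
    ∑ k : K I d.n, d.wt k.1 k.2 κ o ≤ 1 := by
  rcases o with _ | w
  · simp [wt_none]
  · rw [Fintype.sum_prod_type]
    by_cases hw : w.length < d.n + 1
    · rw [Finset.sum_eq_single (⟨w.length, hw⟩ : Fin (d.n + 1))]
      · simp only [wt_some, if_true]
        exact h.pi1 _ _
      · intro m _ hm
        apply Finset.sum_eq_zero
        intro i _
        rw [wt_some, if_neg]
        intro h2
        exact hm (Fin.ext h2.symm)
      · intro h2; exact absurd (Finset.mem_univ _) h2
    · rw [Finset.sum_eq_zero]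
      · norm_num
      · intro m _
        apply Finset.sum_eq_zero
        intro i _
        rw [wt_some, if_neg]
        intro h2
        exact hw (h2 ▸ m.2)

theorem sw_le (h : d.Ok) (m : ℕ) (i : I) (κ : ι) {v : Node} (hv : v.length < d.n) (x : Node)
    (hx : x.length = d.n) (q : Q) :
    ‖d.sw m i κ (d.st κ v) x q‖ ≤ d.wt m i κ (d.st κ v) := by
  rcases ho : d.st κ v with _ | w
  · simp [sw, wt]
  · simp only [sw, wt]
    split_ifs with hw
    · have h1 := h.ph1 κ v w hv ho
      have h2 := h.s1 w κ i x q hx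
      have h3 := h.pi0 w κ i
      rw [norm_div, norm_mul, norm_mul, norm_inv, Complex.norm_ofNat, Complex.norm_real,
        Real.norm_of_nonneg h3]
      have h4 : ‖d.ph w κ‖⁻¹ ≤ 4 := by
        rw [inv_le_comm₀ (by linarith) (by norm_num)]
        linarith
      have h5 : d.pi w κ i * ‖d.ph w κ‖⁻¹ ≤ d.pi w κ i * 4 := mul_le_mul_of_nonneg_left h4 h3
      have h6 : d.pi w κ i * ‖d.ph w κ‖⁻¹ * ‖d.s w κ i x q‖ ≤ d.pi w κ i * 4 * 1 :=
        mul_le_mul h5 h2 (norm_nonneg _) (by positivity)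
      linarith
    · simp

theorem av_eq {v : Node} (hv : v.length < d.n) (F : Node → ℝ) :
    d.av v F = (d.av (true :: v) F + d.av (false :: v) F) / 2 := by
  unfold av
  have : d.n - v.length = (d.n - (v.length + 1)) + 1 := by omega
  rw [this, Lf_succ]
  rfl

theorem avC_eq {v : Node} (hv : v.length < d.n) (F : Node → ℂ) :
    d.avC v F = (d.avC (true :: v) F + d.avC (false :: v) F) / 2 := by
  unfold avC
  have : d.n - v.length = (d.n - (v.length + 1)) + 1 := by omega
  rw [this, LC_succ]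
  rfl

theorem len_of {v : Node} (hv : v.length ≤ d.n) {x : Node}
    (hx : x.length = d.n - v.length + v.length) : x.length = d.n := by omega

theorem av_nonneg {v : Node} (hv : v.length ≤ d.n) {F : Node → ℝ}
    (h : ∀ x, x.length = d.n → v <:+ x → 0 ≤ F x) : 0 ≤ d.av v F :=
  Lf_nonneg _ _ fun x hx hs => h x (len_of hv hx) hs

theorem av_mono {v : Node} (hv : v.length ≤ d.n) {F G : Node → ℝ}
    (h : ∀ x, x.length = d.n → v <:+ x → F x ≤ G x) : d.av v F ≤ d.av v G :=
  Lf_mono _ _ fun x hx hs => h x (len_of hv hx) hs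

theorem norm_avC_le {v : Node} (hv : v.length ≤ d.n) {F : Node → ℂ} {G : Node → ℝ}
    (h : ∀ x, x.length = d.n → v <:+ x → ‖F x‖ ≤ G x) : ‖d.avC v F‖ ≤ d.av v G :=
  norm_LC_le _ _ fun x hx hs => h x (len_of hv hx) hs

theorem av_const_mul (v : Node) (c : ℝ) (F : Node → ℝ) :
    d.av v (fun x => c * F x) = c * d.av v F := Lf_const_mul _ _ _ _

theorem av_sum {J : Type*} (s : Finset J) (v : Node) (F : J → Node → ℝ) :
    d.av v (fun x => ∑ j ∈ s, F j x) = ∑ j ∈ s, d.av v (F j) := Lf_sum _ _ _ _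

theorem av_const {v : Node} (c : ℝ) : d.av v (fun _ => c) = c := by
  unfold av
  generalize d.n - v.length = m
  induction m generalizing v with
  | zero => rfl
  | succ m ih => rw [Lf_succ, ih, ih]; ring

theorem ma_nonneg (h : d.Ok) (κ : ι) {v : Node} (hv : v.length ≤ d.n) : 0 ≤ d.ma κ v :=
  av_nonneg hv fun x hx _ => h.a0 κ x hx

theorem sum_ma_le (h : d.Ok) {v : Node} (hv : v.length ≤ d.n) : ∑ κ, d.ma κ v ≤ 1 := by
  unfold ma
  rw [← av_sum]
  refine (av_mono hv (G := fun _ => 1) fun x hx _ => h.a1 x hx).trans ?_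
  rw [av_const]

theorem f'_nonneg (h : d.Ok) {v : Node} (hv : v.length ≤ d.n) {x : Node}
    (hx : x.length = d.n) : 0 ≤ d.f' v x := by
  rcases v with _ | ⟨b, v⟩
  · exact h.f0 [] x h.n0 hx
  · simp only [List.length_cons] at hv
    exact h.f0 v x (by omega) hx

theorem f_le_f' (h : d.Ok) {v : Node} (hv : v.length < d.n) {x : Node}
    (hx : x.length = d.n) (hs : v <:+ x) : d.f v x ≤ d.f' v x := by
  rcases v with _ | ⟨b, v⟩
  · exact le_rfl
  · simp only [List.length_cons] at hv
    exact h.fm b v x (by omega) hx hs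

theorem av_f_nonneg (h : d.Ok) {v : Node} (hv : v.length < d.n) : 0 ≤ d.av v (d.f v) :=
  av_nonneg hv.le fun x hx _ => h.f0 v x hv hx

theorem av_f'_le (h : d.Ok) {v : Node} (hv : v.length ≤ d.n) :
    d.av v (d.f' v) ≤ 2 := by
  rcases v with _ | ⟨b, v⟩
  · have := h.f1 [] h.n0
    show d.av [] (d.f []) ≤ 2
    linarith
  · simp only [List.length_cons] at hv
    have h1 := h.f1 v (by omega)
    rw [av_eq (by omega)] at h1
    have h2 : ∀ b : Bool, 0 ≤ d.av (b :: v) (d.f v) := fun b =>
      av_nonneg (by simp only [List.length_cons]; omega) fun x hx _ => h.f0 v x (by omega) hx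
    have h3 := h2 true
    have h4 := h2 false
    show d.av (b :: v) (d.f v) ≤ 2
    cases b <;> linarith

theorem st'_len (h : d.Ok) (κ : ι) {v w : Node} (hv : v.length ≤ d.n)
    (hst : d.st' κ v = some w) : w.length < v.length := by
  have key : ∀ v : Node, v.length < d.n → ∀ w, d.st κ v = some w → w.length ≤ v.length := by
    intro v
    induction v with
    | nil =>
      intro _ w hw
      rcases h.st0 κ with h1 | h1
      · rw [h1] at hw; simp at hw
      · rw [h1] at hw
        simp only [Option.some.injEq] at hw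
        rw [← hw]
    | cons b v ih =>
      intro hv w hw
      simp only [List.length_cons] at hv ⊢
      rcases h.sts κ b v hv with h1 | h1 | h1
      · rw [h1] at hw; simp at hw
      · rw [h1] at hw
        have := ih (by omega) w hw
        omega
      · rw [h1] at hw
        simp only [Option.some.injEq] at hw
        rw [← hw]
        simp
  rcases v with _ | ⟨b, v⟩
  · simp [st'] at hst
  · simp only [List.length_cons] at hv ⊢
    have := key v (by omega) w hst
    omega

/-- the weights of the old classes -/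
theorem wt_old (h : d.Ok) (κ : ι) (m : ℕ) (i : I) {v : Node} (hv : v.length < d.n)
    (hm : m ≠ v.length) :
    d.wt m i κ (d.st κ v) = if d.st κ v = d.st' κ v then d.wt m i κ (d.st' κ v) else 0 := by
  split_ifs with h1
  · rw [h1]
  · rcases v with _ | ⟨b, v⟩
    · rcases h.st0 κ with h2 | h2
      · rw [h2]; rfl
      · rw [h2, wt_some, if_neg]
        intro h3; exact hm h3.symm
    · simp only [List.length_cons] at hv
      rcases h.sts κ b v hv with h2 | h2 | h2
      · rw [h2]; rfl
      · exact absurd h2 h1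
      · rw [h2, wt_some, if_neg]
        intro h3; exact hm h3.symm

theorem sw_old (h : d.Ok) (κ : ι) (m : ℕ) (i : I) {v : Node} (hv : v.length < d.n)
    (hm : m ≠ v.length) (x : Node) (q : Q) :
    d.sw m i κ (d.st κ v) x q
      = if d.st κ v = d.st' κ v then d.sw m i κ (d.st' κ v) x q else 0 := by
  split_ifs with h1
  · rw [h1]
  · rcases v with _ | ⟨b, v⟩
    · rcases h.st0 κ with h2 | h2
      · rw [h2]; rfl
      · rw [h2]
        simp only [sw]
        rw [if_neg]
        intro h3; exact hm h3.symm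
    · simp only [List.length_cons] at hv
      rcases h.sts κ b v hv with h2 | h2 | h2
      · rw [h2]; rfl
      · exact absurd h2 h1
      · rw [h2]
        simp only [sw]
        rw [if_neg]
        intro h3; exact hm h3.symm

theorem wt'_new (h : d.Ok) (κ : ι) (m : ℕ) (i : I) {v : Node} (hv : v.length ≤ d.n)
    (hm : v.length ≤ m) : d.wt m i κ (d.st' κ v) = 0 := by
  rcases ho : d.st' κ v with _ | w
  · rfl
  · rw [wt_some, if_neg]
    have := st'_len h κ hv ho
    omega

/-- arrival bound of the kernel -/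
theorem sw'_le (h : d.Ok) (m : ℕ) (i : I) (κ : ι) {v : Node} (hv : v.length ≤ d.n) (x : Node)
    (hx : x.length = d.n) (q : Q) :
    ‖d.sw m i κ (d.st' κ v) x q‖ ≤ d.wt m i κ (d.st' κ v) := by
  rcases v with _ | ⟨b, v⟩
  · simp [st', sw, wt]
  · simp only [List.length_cons] at hv
    exact sw_le h m i κ (v := v) (by omega) x hx q

theorem A_term_le (h : d.Ok) (κ : ι) {v : Node} (hv : v.length ≤ d.n) {w : ℝ} {F : Node → ℂ}
    (hF : ∀ x, x.length = d.n → ‖F x‖ ≤ w) :
    ‖d.avC v fun x => d.A κ x * F x‖ ≤ w * d.ma κ v := by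
  unfold ma
  rw [← av_const_mul]
  apply norm_avC_le hv
  intro x hx _
  rw [norm_mul, mul_comm w]
  exact mul_le_mul (h.Aa κ x hx) (hF x hx) (norm_nonneg _) (h.a0 κ x hx)

theorem PE_le (h : d.Ok) (i : I) (q : Q) {g : ℝ} (hg : 0 ≤ g) {y : Node} (hy : y.length = d.n) :
    ‖(g : ℂ) * (d.P q y : ℂ) * d.E i y‖ ≤ g * d.P q y := by
  have h1 := h.P0 q y hy
  rw [norm_mul, norm_mul, Complex.norm_real, Complex.norm_real, Real.norm_of_nonneg hg,
    Real.norm_of_nonneg h1]
  have := mul_le_mul_of_nonneg_left (h.E1 i y hy) (mul_nonneg hg h1)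
  linarith

theorem sys_ok (h : d.Ok) : d.sys.Ok d.n where
  α0 k v hv := Finset.sum_nonneg fun κ _ => mul_nonneg (wt_nonneg h _ _ _ _) (ma_nonneg h κ hv.le)
  α0' k v hv := Finset.sum_nonneg fun κ _ => mul_nonneg (wt_nonneg h _ _ _ _) (ma_nonneg h κ hv)
  αsum v hv := by
    show ∑ k : K I d.n, ∑ κ, d.wt k.1 k.2 κ (d.st κ v) * d.ma κ v ≤ 1
    rw [Finset.sum_comm]
    refine (Finset.sum_le_sum fun κ _ => ?_).trans (sum_ma_le h hv.le)
    rw [← Finset.sum_mul]
    have := mul_le_mul_of_nonneg_right (sum_wt_le h κ (d.st κ v)) (ma_nonneg h κ hv.le)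
    linarith
  αsum' v hv := by
    show ∑ k : K I d.n, ∑ κ, d.wt k.1 k.2 κ (d.st' κ v) * d.ma κ v ≤ 1
    rw [Finset.sum_comm]
    refine (Finset.sum_le_sum fun κ _ => ?_).trans (sum_ma_le h hv)
    rw [← Finset.sum_mul]
    have := mul_le_mul_of_nonneg_right (sum_wt_le h κ (d.st' κ v)) (ma_nonneg h κ hv)
    linarith
  αm k v hv := by
    show ∑ κ, d.wt k.1 k.2 κ (d.st κ v) * d.ma κ v
      = (∑ κ, d.wt k.1 k.2 κ (d.st κ v) * d.ma κ (true :: v)
        + ∑ κ, d.wt k.1 k.2 κ (d.st κ v) * d.ma κ (false :: v)) / 2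
    rw [← Finset.sum_add_distrib, Finset.sum_div]
    refine Finset.sum_congr rfl fun κ _ => ?_
    unfold ma
    rw [av_eq hv]
    ring
  A1 k q v hv := by
    show ‖∑ κ, d.avC v fun x => d.A κ x * d.sw k.1 k.2 κ (d.st κ v) x q‖
      ≤ ∑ κ, d.wt k.1 k.2 κ (d.st κ v) * d.ma κ v
    refine norm_sum_le_of_le _ fun κ _ => ?_
    exact A_term_le h κ hv.le fun x hx => sw_le h _ _ κ hv x hx q
  A1' k q v hv := by
    show ‖∑ κ, d.avC v fun x => d.A κ x * d.sw k.1 k.2 κ (d.st' κ v) x q‖
      ≤ ∑ κ, d.wt k.1 k.2 κ (d.st' κ v) * d.ma κ v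
    refine norm_sum_le_of_le _ fun κ _ => ?_
    exact A_term_le h κ hv fun x hx => sw'_le h _ _ κ hv x hx q
  Am k q v hv := by
    show ∑ κ, d.avC v (fun x => d.A κ x * d.sw k.1 k.2 κ (d.st κ v) x q)
      = (∑ κ, d.avC (true :: v) (fun x => d.A κ x * d.sw k.1 k.2 κ (d.st κ v) x q)
        + ∑ κ, d.avC (false :: v) (fun x => d.A κ x * d.sw k.1 k.2 κ (d.st κ v) x q)) / 2
    rw [← Finset.sum_add_distrib, Finset.sum_div]
    refine Finset.sum_congr rfl fun κ _ => ?_
    rw [avC_eq hv]
  G0 q v hv := av_nonneg hv.le fun x hx _ => mul_nonneg (h.f0 v x hv hx) (h.P0 q x hx)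
  G0' q v hv := av_nonneg hv fun x hx _ => mul_nonneg (f'_nonneg h hv hx) (h.P0 q x hx)
  Gsum v hv := by
    show ∑ q, d.av v (fun y => d.f v y * d.P q y) ≤ 2
    rw [← av_sum]
    have h1 := h.f1 v hv
    have h2 : d.av v (fun x => ∑ q, d.f v x * d.P q x) ≤ d.av v (d.f v) := by
      apply av_mono hv.le
      intro x hx _
      rw [← Finset.mul_sum, h.P1 x hx, mul_one]
    linarith
  Gsum' v hv := by
    show ∑ q, d.av v (fun y => d.f' v y * d.P q y) ≤ 2
    rw [← av_sum]
    have h1 := av_f'_le h hv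
    have h2 : d.av v (fun x => ∑ q, d.f' v x * d.P q x) ≤ d.av v (d.f' v) := by
      apply av_mono hv
      intro x hx _
      rw [← Finset.mul_sum, h.P1 x hx, mul_one]
    linarith
  Gm q v hv := av_eq hv _
  B1 k q v hv := norm_avC_le hv.le fun y hy _ => PE_le h _ q (h.f0 v y hv hy) hy
  B1' k q v hv := norm_avC_le hv fun y hy _ => PE_le h _ q (f'_nonneg h hv hy) hy
  Bm k q v hv := avC_eq hv _
  Gr q v hv := av_mono hv.le fun x hx hs =>
    mul_le_mul_of_nonneg_right (f_le_f' h hv hx hs) (h.P0 q x hx)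
  xr k v hv := by
    by_cases hm : (k.1 : ℕ) = v.length
    · left
      show ∑ κ, d.wt k.1 k.2 κ (d.st' κ v) * d.ma κ v = 0
      apply Finset.sum_eq_zero
      intro κ _
      rw [wt'_new h κ _ _ hv.le hm.ge, zero_mul]
    · right
      have e1 : ∑ κ, d.wt k.1 k.2 κ (d.st' κ v) * d.ma κ v
          - ∑ κ, d.wt k.1 k.2 κ (d.st κ v) * d.ma κ v
          = ∑ κ, if d.st κ v = d.st' κ v then 0 else d.wt k.1 k.2 κ (d.st' κ v) * d.ma κ v := by
        rw [← Finset.sum_sub_distrib]
        refine Finset.sum_congr rfl fun κ _ => ?_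
        rw [wt_old h κ _ _ hv hm]
        split_ifs <;> ring
      refine ⟨fun q => ?_, ?_, fun q => ?_⟩
      · show ‖∑ κ, d.avC v (fun x => d.A κ x * d.sw k.1 k.2 κ (d.st' κ v) x q)
            - ∑ κ, d.avC v (fun x => d.A κ x * d.sw k.1 k.2 κ (d.st κ v) x q)‖
          ≤ ∑ κ, d.wt k.1 k.2 κ (d.st' κ v) * d.ma κ v
            - ∑ κ, d.wt k.1 k.2 κ (d.st κ v) * d.ma κ v
        rw [e1, ← Finset.sum_sub_distrib]
        refine norm_sum_le_of_le _ fun κ _ => ?_
        by_cases h1 : d.st κ v = d.st' κ v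
        · rw [if_pos h1, h1, sub_self, norm_zero]
        · rw [if_neg h1]
          have h2 : d.avC v (fun x => d.A κ x * d.sw k.1 k.2 κ (d.st κ v) x q) = 0 := by
            have : (fun x => d.A κ x * d.sw k.1 k.2 κ (d.st κ v) x q) = fun _ => 0 := by
              funext x
              rw [sw_old h κ _ _ hv hm, if_neg h1, mul_zero]
            rw [this]
            exact LC_zero _ _
          rw [h2, sub_zero]
          exact A_term_le h κ hv.le fun x hx => sw'_le h _ _ κ hv.le x hx q
      · show ∑ κ, d.wt k.1 k.2 κ (d.st κ v) * d.ma κ v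
          ≤ ∑ κ, d.wt k.1 k.2 κ (d.st' κ v) * d.ma κ v
        have : 0 ≤ ∑ κ, if d.st κ v = d.st' κ v then 0
            else d.wt k.1 k.2 κ (d.st' κ v) * d.ma κ v := by
          apply Finset.sum_nonneg
          intro κ _
          split_ifs
          · exact le_rfl
          · exact mul_nonneg (wt_nonneg h _ _ _ _) (ma_nonneg h κ hv.le)
        linarith
      · show ‖d.avC v (fun y => (d.f' v y : ℂ) * (d.P q y : ℂ) * d.E k.2 y)
            - d.avC v (fun y => (d.f v y : ℂ) * (d.P q y : ℂ) * d.E k.2 y)‖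
          ≤ d.av v (fun y => d.f' v y * d.P q y) - d.av v (fun y => d.f v y * d.P q y)
        have e2 : d.avC v (fun y => (d.f' v y : ℂ) * (d.P q y : ℂ) * d.E k.2 y)
            - d.avC v (fun y => (d.f v y : ℂ) * (d.P q y : ℂ) * d.E k.2 y)
            = d.avC v (fun y => ((d.f' v y - d.f v y : ℝ) : ℂ) * (d.P q y : ℂ) * d.E k.2 y) := by
          unfold avC
          rw [← LC_sub]
          congr 1
          funext y
          push_cast
          ring
        have e3 : d.av v (fun y => d.f' v y * d.P q y) - d.av v (fun y => d.f v y * d.P q y)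
            = d.av v (fun y => (d.f' v y - d.f v y) * d.P q y) := by
          unfold av
          rw [← Lf_sub]
          congr 1
          funext y
          ring
        rw [e2, e3]
        refine norm_avC_le hv.le fun y hy hs => PE_le h _ q ?_ hy
        linarith [f_le_f' h hv hy hs]

end Dat

end Vale.Agent.P091.T.H103
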