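import Vale.Agent.P091.T.H103.Idn

/-! The delayed pairing `gain1` of the system is the sum over the letters. -/

set_option linter.unusedSectionVars false

namespace Vale.Agent.P091.T.H103

open Vale.Agent.P091.H413

namespace Dat

variable {ι I Q : Type} [Fintype ι] [Fintype I] [Fintype Q] {d : Dat ι I Q}

theorem dA_eq (k : K I d.n) (q : Q) (v : Node) :
    d.sys.dA k q v
      = ∑ κ, DC (d.n - v.length - 1) (fun x => d.A κ x * d.sw k.1 k.2 κ (d.st κ v) x q) v := by
  show (∑ κ, d.avC (true :: v) (fun x => d.A κ x * d.sw k.1 k.2 κ (d.st κ v) x q)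
    - ∑ κ, d.avC (false :: v) (fun x => d.A κ x * d.sw k.1 k.2 κ (d.st κ v) x q)) / 2 = _
  rw [← Finset.sum_sub_distrib, Finset.sum_div]
  refine Finset.sum_congr rfl fun κ _ => ?_
  unfold avC DC
  simp only [List.length_cons]
  rw [Nat.sub_add_eq]

theorem DC_zero (m : ℕ) (v : Node) : DC m (fun _ => 0) v = 0 := by
  unfold DC
  rw [LC_zero, LC_zero]
  ring

/-- the sum in `gain1` -/
theorem gain1_sum (h : d.Ok) {v : Node} (hv : v.length + 1 < d.n) (b : Bool) :
    (∑ k, if d.sys.α' k (b :: v) = 0 then 0 else ∑ q, d.sys.dA k q (b :: v) * d.sys.dB k q v)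
      = ∑ κ, if d.st κ (b :: v) = d.st κ v then
          ∑ j : K I d.n × Q, DC (d.n - (b :: v).length - 1)
            (fun x => d.A κ x * d.sw j.1.1 j.1.2 κ (d.st κ v) x j.2) (b :: v)
            * DC (d.n - v.length - 1)
              (fun y => (d.f v y : ℂ) * (d.P j.2 y : ℂ) * d.E j.1.2 y) v
        else 0 := by
  have hb : (b :: v).length < d.n := by simp only [List.length_cons]; omega
  have hvn : v.length < d.n := by omega
  -- class by class
  have h1 : ∀ k : K I d.n,
      (if d.sys.α' k (b :: v) = 0 then 0 else ∑ q, d.sys.dA k q (b :: v) * d.sys.dB k q v)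
      = ∑ κ, if d.st κ (b :: v) = d.st κ v then
          ∑ q, DC (d.n - (b :: v).length - 1)
            (fun x => d.A κ x * d.sw k.1 k.2 κ (d.st κ v) x q) (b :: v)
            * DC (d.n - v.length - 1)
              (fun y => (d.f v y : ℂ) * (d.P q y : ℂ) * d.E k.2 y) v
        else 0 := by
    intro k
    by_cases hm : (k.1 : ℕ) = (b :: v).length
    · -- new classes
      have e1 : d.sys.α' k (b :: v) = 0 := by
        show ∑ κ, d.wt k.1 k.2 κ (d.st' κ (b :: v)) * d.ma κ (b :: v) = 0
        apply Finset.sum_eq_zero
        intro κ _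
        rw [wt'_new h κ _ _ hb.le hm.ge, zero_mul]
      rw [if_pos e1]
      symm
      apply Finset.sum_eq_zero
      intro κ _
      split_ifs with h2
      · apply Finset.sum_eq_zero
        intro q _
        have e2 : (fun x => d.A κ x * d.sw k.1 k.2 κ (d.st κ v) x q) = fun _ => 0 := by
          funext x
          have : d.sw k.1 k.2 κ (d.st κ v) x q = 0 := by
            rcases ho : d.st κ v with _ | w
            · rfl
            · simp only [sw]
              rw [if_neg]
              have := st_len h κ hvn ho
              rw [hm, List.length_cons]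
              omega
          rw [this, mul_zero]
        rw [e2, DC_zero, zero_mul]
      · rfl
    · -- old classes
      have e0 : ∀ q, d.sys.dA k q (b :: v)
          = ∑ κ, if d.st κ (b :: v) = d.st κ v then
            DC (d.n - (b :: v).length - 1)
              (fun x => d.A κ x * d.sw k.1 k.2 κ (d.st κ v) x q) (b :: v) else 0 := by
        intro q
        rw [dA_eq]
        refine Finset.sum_congr rfl fun κ _ => ?_
        split_ifs with h2
        · rw [h2]
        · have e2 : (fun x => d.A κ x * d.sw k.1 k.2 κ (d.st κ (b :: v)) x q) = fun _ => 0 := by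
            funext x
            rw [sw_old h κ _ _ hb hm,
              if_neg (show ¬ d.st κ (b :: v) = d.st' κ (b :: v) from h2), mul_zero]
          rw [e2, DC_zero]
      have e3 : (∑ q, d.sys.dA k q (b :: v) * d.sys.dB k q v)
          = ∑ κ, if d.st κ (b :: v) = d.st κ v then
          ∑ q, DC (d.n - (b :: v).length - 1)
            (fun x => d.A κ x * d.sw k.1 k.2 κ (d.st κ v) x q) (b :: v)
            * DC (d.n - v.length - 1)
              (fun y => (d.f v y : ℂ) * (d.P q y : ℂ) * d.E k.2 y) v
        else 0 := by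
        have : ∀ q, d.sys.dA k q (b :: v) * d.sys.dB k q v
            = ∑ κ, if d.st κ (b :: v) = d.st κ v then
              DC (d.n - (b :: v).length - 1)
                (fun x => d.A κ x * d.sw k.1 k.2 κ (d.st κ v) x q) (b :: v)
              * DC (d.n - v.length - 1)
                (fun y => (d.f v y : ℂ) * (d.P q y : ℂ) * d.E k.2 y) v else 0 := by
          intro q
          rw [e0 q, dB_eq, Finset.sum_mul]
          refine Finset.sum_congr rfl fun κ _ => ?_
          split_ifs <;> simp
        rw [Finset.sum_congr rfl fun q _ => this q, Finset.sum_comm]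
        refine Finset.sum_congr rfl fun κ _ => ?_
        split_ifs
        · rfl
        · simp
      by_cases ha : d.sys.α' k (b :: v) = 0
      · rw [if_pos ha, ← e3]
        symm
        apply Finset.sum_eq_zero
        intro q _
        -- `dA = 0`
        have hok := sys_ok h
        have g1 : d.sys.α k (b :: v) ≤ d.sys.α' k (b :: v) := by
          rcases hok.xr k (b :: v) hb with h2 | h2
          · -- old class: monotone anyway
            show ∑ κ, d.wt k.1 k.2 κ (d.st κ (b :: v)) * d.ma κ (b :: v)
              ≤ ∑ κ, d.wt k.1 k.2 κ (d.st' κ (b :: v)) * d.ma κ (b :: v)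
            refine Finset.sum_le_sum fun κ _ => ?_
            rw [wt_old h κ _ _ hb hm]
            split_ifs
            · exact le_rfl
            · rw [zero_mul]
              exact mul_nonneg (wt_nonneg h _ _ _ _) (ma_nonneg h κ hb.le)
          · exact h2.2.1
        have g2 := hok.α0 k (b :: v) hb
        have g3 : d.sys.α k (b :: v) = 0 := le_antisymm (by rw [← ha]; exact g1) g2
        have g4 := hok.αm k (b :: v) hb
        have hb2 : ∀ c : Bool, (c :: b :: v).length ≤ d.n := by
          intro c; simp only [List.length_cons]; omega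
        have g5 := hok.α0' k (true :: b :: v) (hb2 _)
        have g6 := hok.α0' k (false :: b :: v) (hb2 _)
        have g7 := hok.A1' k q (true :: b :: v) (hb2 _)
        have g8 := hok.A1' k q (false :: b :: v) (hb2 _)
        have g9 : d.sys.A' k q (true :: b :: v) = 0 := by
          rw [← norm_eq_zero]
          have := norm_nonneg (d.sys.A' k q (true :: b :: v))
          linarith
        have g10 : d.sys.A' k q (false :: b :: v) = 0 := by
          rw [← norm_eq_zero]
          have := norm_nonneg (d.sys.A' k q (false :: b :: v))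
          linarith
        have g11 : d.sys.dA k q (b :: v) = 0 := by
          unfold ESys.dA
          rw [g9, g10]
          ring
        rw [g11, zero_mul]
      · rw [if_neg ha, e3]
  rw [Finset.sum_congr rfl fun k _ => h1 k, Finset.sum_comm]
  refine Finset.sum_congr rfl fun κ _ => ?_
  split_ifs with h2
  · exact (Fintype.sum_prod_type (fun j : K I d.n × Q => DC (d.n - (b :: v).length - 1)
            (fun x => d.A κ x * d.sw j.1.1 j.1.2 κ (d.st κ v) x j.2) (b :: v)
            * DC (d.n - v.length - 1)
              (fun y => (d.f v y : ℂ) * (d.P j.2 y : ℂ) * d.E j.1.2 y) v)).symm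
  · simp

/-- the letters -/
theorem letters_le (h : d.Ok) {v : Node} (hv : v.length + 1 < d.n) (b : Bool) :
    ‖∑ κ, if d.st κ (b :: v) = d.st κ v ∧ d.st κ v ≠ none then d.dX κ (b :: v) * d.dM κ v else 0‖
      ≤ 4 * d.sys.gain1 b v
        + 4 * ∑ κ, if d.st κ v ≠ none then d.err κ v * d.ma κ (b :: v) else 0 := by
  have hb : (b :: v).length < d.n := by simp only [List.length_cons]; omega
  have hvn : v.length < d.n := by omega
  have h1 : ∀ κ, ‖(if d.st κ (b :: v) = d.st κ v then
          ∑ j : K I d.n × Q, DC (d.n - (b :: v).length - 1)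
            (fun x => d.A κ x * d.sw j.1.1 j.1.2 κ (d.st κ v) x j.2) (b :: v)
            * DC (d.n - v.length - 1)
              (fun y => (d.f v y : ℂ) * (d.P j.2 y : ℂ) * d.E j.1.2 y) v
        else 0)
      - 1 / 4 * (if d.st κ (b :: v) = d.st κ v ∧ d.st κ v ≠ none then
          d.dX κ (b :: v) * d.dM κ v else 0)‖
      ≤ if d.st κ v ≠ none then d.err κ v * d.ma κ (b :: v) else 0 := by
    intro κ
    have hnn : 0 ≤ d.err κ v * d.ma κ (b :: v) := mul_nonneg (h.err0 κ v) (ma_nonneg h κ hb.le)
    rcases ho : d.st κ v with _ | w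
    · -- not active
      simp [sw, DC_zero]
    · by_cases h2 : d.st κ (b :: v) = some w
      · rw [if_pos h2, if_pos ⟨h2, by simp⟩, if_pos (by simp)]
        have h3 := DC_pairD (Finset.univ : Finset (K I d.n × Q)) (d.n - (b :: v).length - 1)
          (d.n - v.length - 1) (b :: v) v
          (fun j x => d.A κ x * d.sw j.1.1 j.1.2 κ (d.st κ v) x j.2)
          (fun j y => (d.f v y : ℂ) * (d.P j.2 y : ℂ) * d.E j.1.2 y)
          (fun x => 1 / 4 * d.A κ x) (fun y => (d.f v y : ℂ) * d.e κ y)
          (d.a κ) (d.f v) (d.err κ v)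
          (fun x hx hs y hy hs2 => pt_all h κ hvn ho
            (by omega) (suf_child hs) (by omega) hs2
            _ (h.f0 v y hvn (by omega)))
        have e1 : DC (d.n - (b :: v).length - 1) (fun x => 1 / 4 * d.A κ x) (b :: v)
            = 1 / 4 * d.dX κ (b :: v) := by
          unfold dX DC
          rw [LC_const_mul, LC_const_mul]
          ring
        have e2 : d.n - (b :: v).length - 1 + 1 = d.n - (b :: v).length := by omega
        have e3 : d.n - v.length - 1 + 1 = d.n - v.length := by omega
        rw [e1, e2, e3] at h3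
        rw [ho] at h3
        have h4 : 1 / 4 * d.dX κ (b :: v)
            * DC (d.n - v.length - 1) (fun y => (d.f v y : ℂ) * d.e κ y) v
            = 1 / 4 * (d.dX κ (b :: v) * d.dM κ v) := by
          unfold dM
          ring
        rw [h4] at h3
        refine h3.trans ?_
        have h5 : Lf (d.n - v.length) (d.f v) v ≤ 1 := h.f1 v hvn
        have h6 : Lf (d.n - (b :: v).length) (d.a κ) (b :: v) = d.ma κ (b :: v) := rfl
        rw [h6]
        have h7 := mul_le_mul_of_nonneg_left h5 hnn
        linarith
      · rw [if_neg h2, if_neg (fun h4 => h2 h4.1), if_pos (by simp)]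
        simpa using hnn
  have h2 : ‖(∑ κ, if d.st κ (b :: v) = d.st κ v then
          ∑ j : K I d.n × Q, DC (d.n - (b :: v).length - 1)
            (fun x => d.A κ x * d.sw j.1.1 j.1.2 κ (d.st κ v) x j.2) (b :: v)
            * DC (d.n - v.length - 1)
              (fun y => (d.f v y : ℂ) * (d.P j.2 y : ℂ) * d.E j.1.2 y) v
        else 0)
      - ∑ κ, 1 / 4 * (if d.st κ (b :: v) = d.st κ v ∧ d.st κ v ≠ none then
          d.dX κ (b :: v) * d.dM κ v else 0)‖
      ≤ ∑ κ, if d.st κ v ≠ none then d.err κ v * d.ma κ (b :: v) else 0 := by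
    rw [← Finset.sum_sub_distrib]
    exact norm_sum_le_of_le _ fun κ _ => h1 κ
  rw [← gain1_sum h hv b, ← Finset.mul_sum] at h2
  set X := ∑ κ, if d.st κ (b :: v) = d.st κ v ∧ d.st κ v ≠ none then
          d.dX κ (b :: v) * d.dM κ v else 0 with hX
  have h3 : d.sys.gain1 b v
      = ‖∑ k, if d.sys.α' k (b :: v) = 0 then 0 else
          ∑ q, d.sys.dA k q (b :: v) * d.sys.dB k q v‖ := rfl
  rw [h3]
  set Y := ∑ k, if d.sys.α' k (b :: v) = 0 then 0 else
          ∑ q, d.sys.dA k q (b :: v) * d.sys.dB k q v with hY
  have h4 : ‖1 / 4 * X‖ ≤ ‖Y‖ + ‖Y - 1 / 4 * X‖ := by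
    have := norm_sub_le Y (Y - 1 / 4 * X)
    rw [sub_sub_cancel] at this
    exact this
  have h5 : ‖(1 / 4 : ℂ) * X‖ = ‖X‖ / 4 := by
    rw [norm_mul]
    norm_num
    ring
  rw [h5] at h4
  linarith

end Dat

end Vale.Agent.P091.T.H103
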