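import Vale.Agent.P091.T.H103.Dat

/-! Identities: the values `z`, `z'`, `τ` and the pairing `gain1` of the system in terms of the
letters. -/

set_option linter.unusedSectionVars false

namespace Vale.Agent.P091.T.H103

open Vale.Agent.P091.H413

namespace Dat

variable {ι I Q : Type} [Fintype ι] [Fintype I] [Fintype Q] (d : Dat ι I Q)

/-- the coefficient of the letter of `κ` in the class `(m, i)` -/
noncomputable def cf (m : ℕ) (i : I) (κ : ι) (o : Option Node) : ℂ :=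
  match o with
  | none => 0
  | some w => if w.length = m then (d.pi w κ i : ℂ) * (d.ph w κ)⁻¹ * d.c w κ i / 4 else 0

variable {d}

theorem cf_le (h : d.Ok) (m : ℕ) (i : I) (κ : ι) {v : Node} (hv : v.length < d.n) :
    ‖d.cf m i κ (d.st κ v)‖ ≤ d.wt m i κ (d.st κ v) := by
  rcases ho : d.st κ v with _ | w
  · simp [cf, wt]
  · simp only [cf, wt]
    split_ifs with hw
    · have h1 := h.ph1 κ v w hv ho
      have h2 := h.c1 w κ i
      have h3 := h.pi0 w κ i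
      rw [norm_div, norm_mul, norm_mul, norm_inv, Complex.norm_ofNat, Complex.norm_real,
        Real.norm_of_nonneg h3]
      have h4 : ‖d.ph w κ‖⁻¹ ≤ 4 := by
        rw [inv_le_comm₀ (by linarith) (by norm_num)]
        linarith
      have h5 : d.pi w κ i * ‖d.ph w κ‖⁻¹ ≤ d.pi w κ i * 4 := mul_le_mul_of_nonneg_left h4 h3
      have h6 : d.pi w κ i * ‖d.ph w κ‖⁻¹ * ‖d.c w κ i‖ ≤ d.pi w κ i * 4 * 1 :=
        mul_le_mul h5 h2 (norm_nonneg _) (by positivity)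
      linarith
    · simp

theorem st_len (h : d.Ok) (κ : ι) {v w : Node} (hv : v.length < d.n)
    (hst : d.st κ v = some w) : w.length ≤ v.length := by
  have := st'_len h κ (v := true :: v) (w := w) (by simp only [List.length_cons]; omega) hst
  simp only [List.length_cons] at this
  omega

theorem sum_cf (h : d.Ok) (κ : ι) {v w : Node} (hv : v.length < d.n) (hst : d.st κ v = some w) :
    ∑ k : K I d.n, d.cf k.1 k.2 κ (d.st κ v) = 1 / 4 := by
  rw [hst, Fintype.sum_prod_type]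
  have hw : w.length < d.n + 1 := by have := st_len h κ hv hst; omega
  have hp := h.ph1 κ v w hv hst
  have hp0 : d.ph w κ ≠ 0 := by
    intro h0
    rw [h0, norm_zero] at hp
    linarith
  rw [Finset.sum_eq_single (⟨w.length, hw⟩ : Fin (d.n + 1))]
  · simp only [cf, if_true]
    rw [← Finset.sum_div]
    have : ∑ i, (d.pi w κ i : ℂ) * (d.ph w κ)⁻¹ * d.c w κ i
        = (d.ph w κ)⁻¹ * ∑ i, (d.pi w κ i : ℂ) * d.c w κ i := by
      rw [Finset.mul_sum]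
      exact Finset.sum_congr rfl fun i _ => by ring
    rw [this]
    have e : ∑ i, (d.pi w κ i : ℂ) * d.c w κ i = d.ph w κ := rfl
    rw [e, inv_mul_cancel₀ hp0]
  · intro m _ hm
    apply Finset.sum_eq_zero
    intro i _
    simp only [cf]
    rw [if_neg]
    intro h2
    exact hm (Fin.ext h2.symm)
  · intro h2; exact absurd (Finset.mem_univ _) h2

/-- the pointwise identity, class by class -/
theorem pt (h : d.Ok) (m : ℕ) (i : I) (κ : ι) {v : Node} (hv : v.length < d.n) {x y : Node}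
    (hx : x.length = d.n) (hsx : v <:+ x) (hy : y.length = d.n) (hsy : v <:+ y) (g : ℝ)
    (hg : 0 ≤ g) :
    ‖∑ q, (d.A κ x * d.sw m i κ (d.st κ v) x q) * ((g : ℂ) * (d.P q y : ℂ) * d.E i y)
      - (d.cf m i κ (d.st κ v) * d.A κ x) * ((g : ℂ) * d.e κ y)‖
      ≤ (d.wt m i κ (d.st κ v) * d.err κ v) * d.a κ x * g := by
  have hA := h.Aa κ x hx
  have ha := h.a0 κ x hx
  rcases ho : d.st κ v with _ | w
  · simp [sw, wt, cf]
  · simp only [sw, wt, cf]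
    split_ifs with hw
    · have h1 := h.ph1 κ v w hv ho
      have h3 := h.pi0 w κ i
      have h4 : ‖d.ph w κ‖⁻¹ ≤ 4 := by
        rw [inv_le_comm₀ (by linarith) (by norm_num)]
        linarith
      have h5 := h.T2 κ v w hv ho i x y hx hsx hy hsy
      have e : ∑ q, (d.A κ x * ((d.pi w κ i : ℂ) * (d.ph w κ)⁻¹ * d.s w κ i x q / 4))
            * ((g : ℂ) * (d.P q y : ℂ) * d.E i y)
          - ((d.pi w κ i : ℂ) * (d.ph w κ)⁻¹ * d.c w κ i / 4 * d.A κ x) * ((g : ℂ) * d.e κ y)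
          = (d.A κ x * (g : ℂ) * (d.pi w κ i : ℂ) * ((d.ph w κ)⁻¹ / 4))
            * (∑ q, d.s w κ i x q * (d.P q y : ℂ) * d.E i y - d.c w κ i * d.e κ y) := by
        rw [mul_sub, Finset.mul_sum]
        congr 1
        · exact Finset.sum_congr rfl fun q _ => by ring
        · ring
      rw [e, norm_mul, norm_mul, norm_mul, norm_mul, norm_div, norm_inv, Complex.norm_ofNat,
        Complex.norm_real, Complex.norm_real, Real.norm_of_nonneg h3, Real.norm_of_nonneg hg]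
      have h6 : ‖d.A κ x‖ * g * d.pi w κ i * (‖d.ph w κ‖⁻¹ / 4)
          ≤ d.a κ x * g * d.pi w κ i * 1 := by
        apply mul_le_mul _ (by linarith) (by positivity) (by positivity)
        exact mul_le_mul_of_nonneg_right (mul_le_mul_of_nonneg_right hA hg) h3
      have h7 := mul_le_mul h6 h5 (norm_nonneg _) (by positivity)
      linarith
    · simp

theorem sum_pair (h : d.Ok) (m : ℕ) (i : I) {v u : Node} (hv : v.length < d.n) (hvu : v <:+ u)
    (hu : u.length ≤ d.n) :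
    ‖∑ q, (∑ κ, d.avC u fun x => d.A κ x * d.sw m i κ (d.st κ v) x q)
        * (d.avC u fun y => (d.f v y : ℂ) * (d.P q y : ℂ) * d.E i y)
      - ∑ κ, (d.cf m i κ (d.st κ v) * d.avC u (d.A κ))
        * (d.avC u fun y => (d.f v y : ℂ) * d.e κ y)‖
      ≤ ∑ κ, (d.wt m i κ (d.st κ v) * d.err κ v) * d.ma κ u * d.av u (d.f v) := by
  have e : ∑ q, (∑ κ, d.avC u fun x => d.A κ x * d.sw m i κ (d.st κ v) x q)
        * (d.avC u fun y => (d.f v y : ℂ) * (d.P q y : ℂ) * d.E i y)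
      = ∑ κ, ∑ q, (d.avC u fun x => d.A κ x * d.sw m i κ (d.st κ v) x q)
        * (d.avC u fun y => (d.f v y : ℂ) * (d.P q y : ℂ) * d.E i y) := by
    rw [Finset.sum_comm]
    exact Finset.sum_congr rfl fun q _ => Finset.sum_mul _ _ _
  rw [e, ← Finset.sum_sub_distrib]
  refine norm_sum_le_of_le _ fun κ _ => ?_
  have h1 := LC_pair2 Finset.univ (d.n - u.length) (d.n - u.length) u u
    (fun q x => d.A κ x * d.sw m i κ (d.st κ v) x q)
    (fun q y => (d.f v y : ℂ) * (d.P q y : ℂ) * d.E i y)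
    (fun x => d.cf m i κ (d.st κ v) * d.A κ x) (fun y => (d.f v y : ℂ) * d.e κ y)
    (d.a κ) (d.f v) (d.wt m i κ (d.st κ v) * d.err κ v)
    (fun x hx hs y hy hs2 => pt h m i κ hv (by omega) (hvu.trans hs) (by omega) (hvu.trans hs2)
      _ (h.f0 v y hv (by omega)))
  rw [LC_const_mul] at h1
  exact h1

theorem sum_pairD (h : d.Ok) (m : ℕ) (i : I) {v : Node} (hv : v.length < d.n) :
    ‖∑ q, (∑ κ, d.avC v fun x => d.A κ x * d.sw m i κ (d.st κ v) x q)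
        * DC (d.n - v.length - 1) (fun y => (d.f v y : ℂ) * (d.P q y : ℂ) * d.E i y) v
      - ∑ κ, (d.cf m i κ (d.st κ v) * d.avC v (d.A κ)) * d.dM κ v‖
      ≤ ∑ κ, (d.wt m i κ (d.st κ v) * d.err κ v) * d.ma κ v * d.av v (d.f v) := by
  have e : ∑ q, (∑ κ, d.avC v fun x => d.A κ x * d.sw m i κ (d.st κ v) x q)
        * DC (d.n - v.length - 1) (fun y => (d.f v y : ℂ) * (d.P q y : ℂ) * d.E i y) v
      = ∑ κ, ∑ q, (d.avC v fun x => d.A κ x * d.sw m i κ (d.st κ v) x q)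
        * DC (d.n - v.length - 1) (fun y => (d.f v y : ℂ) * (d.P q y : ℂ) * d.E i y) v := by
    rw [Finset.sum_comm]
    exact Finset.sum_congr rfl fun q _ => Finset.sum_mul _ _ _
  rw [e, ← Finset.sum_sub_distrib]
  refine norm_sum_le_of_le _ fun κ _ => ?_
  have h1 := LC_pairD Finset.univ (d.n - v.length) (d.n - v.length - 1) v v
    (fun q x => d.A κ x * d.sw m i κ (d.st κ v) x q)
    (fun q y => (d.f v y : ℂ) * (d.P q y : ℂ) * d.E i y)
    (fun x => d.cf m i κ (d.st κ v) * d.A κ x) (fun y => (d.f v y : ℂ) * d.e κ y)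
    (d.a κ) (d.f v) (d.wt m i κ (d.st κ v) * d.err κ v)
    (fun x hx hs y hy hs2 => pt h m i κ hv (by omega) hs (by omega) hs2
      _ (h.f0 v y hv (by omega)))
  rw [LC_const_mul] at h1
  have e2 : d.n - v.length - 1 + 1 = d.n - v.length := by omega
  rw [e2] at h1
  exact h1

/-- all classes together, differences in both variables -/
theorem pt_all (h : d.Ok) (κ : ι) {v w : Node} (hv : v.length < d.n)
    (hst : d.st κ v = some w) {x y : Node}
    (hx : x.length = d.n) (hsx : v <:+ x) (hy : y.length = d.n) (hsy : v <:+ y) (g : ℝ)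
    (hg : 0 ≤ g) :
    ‖∑ j : K I d.n × Q, (d.A κ x * d.sw j.1.1 j.1.2 κ (d.st κ v) x j.2)
        * ((g : ℂ) * (d.P j.2 y : ℂ) * d.E j.1.2 y)
      - (1 / 4 * d.A κ x) * ((g : ℂ) * d.e κ y)‖
      ≤ d.err κ v * d.a κ x * g := by
  have e : ∑ j : K I d.n × Q, (d.A κ x * d.sw j.1.1 j.1.2 κ (d.st κ v) x j.2)
        * ((g : ℂ) * (d.P j.2 y : ℂ) * d.E j.1.2 y)
      - (1 / 4 * d.A κ x) * ((g : ℂ) * d.e κ y)
      = ∑ k : K I d.n, (∑ q, (d.A κ x * d.sw k.1 k.2 κ (d.st κ v) x q)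
        * ((g : ℂ) * (d.P q y : ℂ) * d.E k.2 y)
        - (d.cf k.1 k.2 κ (d.st κ v) * d.A κ x) * ((g : ℂ) * d.e κ y)) := by
    rw [Fintype.sum_prod_type, Finset.sum_sub_distrib]
    congr 1
    rw [← Finset.sum_mul, ← Finset.sum_mul, sum_cf h κ hv hst]
  rw [e]
  refine (norm_sum_le_of_le _ fun k _ => pt h k.1 k.2 κ hv hx hsx hy hsy g hg).trans ?_
  have h1 : ∑ k : K I d.n, (d.wt k.1 k.2 κ (d.st κ v) * d.err κ v) * d.a κ x * g
      = (∑ k : K I d.n, d.wt k.1 k.2 κ (d.st κ v)) * (d.err κ v * d.a κ x * g) := by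
    rw [Finset.sum_mul]
    exact Finset.sum_congr rfl fun k _ => by ring
  rw [h1]
  have h2 := sum_wt_le h κ (d.st κ v)
  have h3 : 0 ≤ d.err κ v * d.a κ x * g :=
    mul_nonneg (mul_nonneg (h.err0 κ v) (h.a0 κ x hx)) hg
  calc _ ≤ 1 * (d.err κ v * d.a κ x * g) := mul_le_mul_of_nonneg_right h2 h3
    _ = _ := one_mul _

/-- `z` on departure -/
theorem z_le (h : d.Ok) (k : K I d.n) {v : Node} (hv : v.length < d.n) :
    ‖d.sys.z k v‖ ≤ ∑ κ, d.wt k.1 k.2 κ (d.st κ v) * d.ma κ v * (‖d.M κ v‖ + d.err κ v) := by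
  have h1 := sum_pair h (k.1 : ℕ) k.2 hv (List.suffix_refl v) hv.le
  have h2 : ‖∑ κ, (d.cf k.1 k.2 κ (d.st κ v) * d.avC v (d.A κ))
        * (d.avC v fun y => (d.f v y : ℂ) * d.e κ y)‖
      ≤ ∑ κ, d.wt k.1 k.2 κ (d.st κ v) * d.ma κ v * ‖d.M κ v‖ := by
    refine norm_sum_le_of_le _ fun κ _ => ?_
    rw [norm_mul, norm_mul]
    apply mul_le_mul_of_nonneg_right _ (norm_nonneg _)
    exact mul_le_mul (cf_le h _ _ _ hv) (norm_avC_le hv.le fun x hx _ => h.Aa κ x hx)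
      (norm_nonneg _) (wt_nonneg h _ _ _ _)
  have h3 : ∑ κ, (d.wt k.1 k.2 κ (d.st κ v) * d.err κ v) * d.ma κ v * d.av v (d.f v)
      ≤ ∑ κ, d.wt k.1 k.2 κ (d.st κ v) * d.ma κ v * d.err κ v := by
    refine Finset.sum_le_sum fun κ _ => ?_
    have h4 : 0 ≤ (d.wt k.1 k.2 κ (d.st κ v) * d.err κ v) * d.ma κ v :=
      mul_nonneg (mul_nonneg (wt_nonneg h _ _ _ _) (h.err0 κ v)) (ma_nonneg h κ hv.le)
    have h5 := mul_le_mul_of_nonneg_left (h.f1 v hv) h4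
    linarith
  have e : ∑ κ, d.wt k.1 k.2 κ (d.st κ v) * d.ma κ v * (‖d.M κ v‖ + d.err κ v)
      = ∑ κ, d.wt k.1 k.2 κ (d.st κ v) * d.ma κ v * ‖d.M κ v‖
        + ∑ κ, d.wt k.1 k.2 κ (d.st κ v) * d.ma κ v * d.err κ v := by
    rw [← Finset.sum_add_distrib]
    exact Finset.sum_congr rfl fun κ _ => by ring
  rw [e]
  have h6 := norm_le_norm_add_norm_sub' (d.sys.z k v)
    (∑ κ, (d.cf k.1 k.2 κ (d.st κ v) * d.avC v (d.A κ))
        * (d.avC v fun y => (d.f v y : ℂ) * d.e κ y))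
  have h7 : ‖d.sys.z k v - ∑ κ, (d.cf k.1 k.2 κ (d.st κ v) * d.avC v (d.A κ))
        * (d.avC v fun y => (d.f v y : ℂ) * d.e κ y)‖
      ≤ ∑ κ, (d.wt k.1 k.2 κ (d.st κ v) * d.err κ v) * d.ma κ v * d.av v (d.f v) := h1
  linarith

/-- `z'` on arrival at a child -/
theorem z'_le (h : d.Ok) (k : K I d.n) {v : Node} (hv : v.length < d.n) (b : Bool) :
    ‖d.sys.z' k (b :: v)‖ ≤ ∑ κ, d.wt k.1 k.2 κ (d.st κ v) * d.ma κ (b :: v)
      * (‖d.M' κ (b :: v)‖ + 2 * d.err κ v) := by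
  have hb : (b :: v).length ≤ d.n := by simp only [List.length_cons]; omega
  have h1 := sum_pair h (k.1 : ℕ) k.2 hv (List.suffix_cons b v) hb
  have h2 : ‖∑ κ, (d.cf k.1 k.2 κ (d.st κ v) * d.avC (b :: v) (d.A κ))
        * (d.avC (b :: v) fun y => (d.f v y : ℂ) * d.e κ y)‖
      ≤ ∑ κ, d.wt k.1 k.2 κ (d.st κ v) * d.ma κ (b :: v) * ‖d.M' κ (b :: v)‖ := by
    refine norm_sum_le_of_le _ fun κ _ => ?_
    rw [norm_mul, norm_mul]
    apply mul_le_mul_of_nonneg_right _ (norm_nonneg _)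
    exact mul_le_mul (cf_le h _ _ _ hv) (norm_avC_le hb fun x hx _ => h.Aa κ x hx)
      (norm_nonneg _) (wt_nonneg h _ _ _ _)
  have h3 : ∑ κ, (d.wt k.1 k.2 κ (d.st κ v) * d.err κ v) * d.ma κ (b :: v) * d.av (b :: v) (d.f v)
      ≤ ∑ κ, d.wt k.1 k.2 κ (d.st κ v) * d.ma κ (b :: v) * (2 * d.err κ v) := by
    refine Finset.sum_le_sum fun κ _ => ?_
    have h4 : 0 ≤ (d.wt k.1 k.2 κ (d.st κ v) * d.err κ v) * d.ma κ (b :: v) :=
      mul_nonneg (mul_nonneg (wt_nonneg h _ _ _ _) (h.err0 κ v)) (ma_nonneg h κ hb)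
    have h5 : d.av (b :: v) (d.f v) ≤ 2 := av_f'_le h (v := b :: v) hb
    have h6 := mul_le_mul_of_nonneg_left h5 h4
    linarith
  have e : ∑ κ, d.wt k.1 k.2 κ (d.st κ v) * d.ma κ (b :: v)
        * (‖d.M' κ (b :: v)‖ + 2 * d.err κ v)
      = ∑ κ, d.wt k.1 k.2 κ (d.st κ v) * d.ma κ (b :: v) * ‖d.M' κ (b :: v)‖
        + ∑ κ, d.wt k.1 k.2 κ (d.st κ v) * d.ma κ (b :: v) * (2 * d.err κ v) := by
    rw [← Finset.sum_add_distrib]
    exact Finset.sum_congr rfl fun κ _ => by ring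
  rw [e]
  have h6 := norm_le_norm_add_norm_sub' (d.sys.z' k (b :: v))
    (∑ κ, (d.cf k.1 k.2 κ (d.st κ v) * d.avC (b :: v) (d.A κ))
        * (d.avC (b :: v) fun y => (d.f v y : ℂ) * d.e κ y))
  have h7 : ‖d.sys.z' k (b :: v) - ∑ κ, (d.cf k.1 k.2 κ (d.st κ v) * d.avC (b :: v) (d.A κ))
        * (d.avC (b :: v) fun y => (d.f v y : ℂ) * d.e κ y)‖
      ≤ ∑ κ, (d.wt k.1 k.2 κ (d.st κ v) * d.err κ v) * d.ma κ (b :: v)
        * d.av (b :: v) (d.f v) := h1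
  linarith

theorem dB_eq (k : K I d.n) (q : Q) (v : Node) :
    d.sys.dB k q v
      = DC (d.n - v.length - 1) (fun y => (d.f v y : ℂ) * (d.P q y : ℂ) * d.E k.2 y) v := by
  show (d.avC (true :: v) (fun y => (d.f v y : ℂ) * (d.P q y : ℂ) * d.E k.2 y)
    - d.avC (false :: v) (fun y => (d.f v y : ℂ) * (d.P q y : ℂ) * d.E k.2 y)) / 2 = _
  unfold avC DC
  simp only [List.length_cons]
  rw [Nat.sub_add_eq]

/-- the energy of `τ` -/
theorem tau_le (h : d.Ok) (k : K I d.n) {v : Node} (hv : v.length < d.n) :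
    d.sys.α k v * ‖d.sys.τ k v‖ ^ 2
      ≤ ∑ κ, d.wt k.1 k.2 κ (d.st κ v) * d.ma κ v * (‖d.dM κ v‖ + d.err κ v) ^ 2 := by
  have hα0 : 0 ≤ d.sys.α k v := (sys_ok h).α0 k v hv
  have hW : ∀ κ, 0 ≤ d.wt k.1 k.2 κ (d.st κ v) * d.ma κ v := fun κ =>
    mul_nonneg (wt_nonneg h _ _ _ _) (ma_nonneg h κ hv.le)
  have hR : 0 ≤ ∑ κ, d.wt k.1 k.2 κ (d.st κ v) * d.ma κ v * (‖d.dM κ v‖ + d.err κ v) ^ 2 :=
    Finset.sum_nonneg fun κ _ => mul_nonneg (hW κ) (sq_nonneg _)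
  rcases eq_or_lt_of_le hα0 with h0 | hpos
  · rw [← h0, zero_mul]; exact hR
  -- `α τ = ∑ A dB`
  have e1 : (d.sys.α k v : ℂ) * d.sys.τ k v = ∑ q, d.sys.A k q v * d.sys.dB k q v := by
    unfold ESys.τ
    rw [Finset.mul_sum]
    refine Finset.sum_congr rfl fun q _ => ?_
    have hne : (d.sys.α k v : ℂ) ≠ 0 := by exact_mod_cast hpos.ne'
    field_simp
  have h1 := sum_pairD h (k.1 : ℕ) k.2 hv
  have h2 : ‖∑ κ, (d.cf k.1 k.2 κ (d.st κ v) * d.avC v (d.A κ)) * d.dM κ v‖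
      ≤ ∑ κ, d.wt k.1 k.2 κ (d.st κ v) * d.ma κ v * ‖d.dM κ v‖ := by
    refine norm_sum_le_of_le _ fun κ _ => ?_
    rw [norm_mul, norm_mul]
    apply mul_le_mul_of_nonneg_right _ (norm_nonneg _)
    exact mul_le_mul (cf_le h _ _ _ hv) (norm_avC_le hv.le fun x hx _ => h.Aa κ x hx)
      (norm_nonneg _) (wt_nonneg h _ _ _ _)
  have h3 : ∑ κ, (d.wt k.1 k.2 κ (d.st κ v) * d.err κ v) * d.ma κ v * d.av v (d.f v)
      ≤ ∑ κ, d.wt k.1 k.2 κ (d.st κ v) * d.ma κ v * d.err κ v := by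
    refine Finset.sum_le_sum fun κ _ => ?_
    have h4 : 0 ≤ (d.wt k.1 k.2 κ (d.st κ v) * d.err κ v) * d.ma κ v :=
      mul_nonneg (mul_nonneg (wt_nonneg h _ _ _ _) (h.err0 κ v)) (ma_nonneg h κ hv.le)
    have h5 := mul_le_mul_of_nonneg_left (h.f1 v hv) h4
    linarith
  have h7 : ‖∑ q, d.sys.A k q v * d.sys.dB k q v
        - ∑ κ, (d.cf k.1 k.2 κ (d.st κ v) * d.avC v (d.A κ)) * d.dM κ v‖
      ≤ ∑ κ, (d.wt k.1 k.2 κ (d.st κ v) * d.err κ v) * d.ma κ v * d.av v (d.f v) := by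
    simp only [dB_eq]
    exact h1
  have h6 := norm_le_norm_add_norm_sub' (∑ q, d.sys.A k q v * d.sys.dB k q v)
    (∑ κ, (d.cf k.1 k.2 κ (d.st κ v) * d.avC v (d.A κ)) * d.dM κ v)
  have h8 : d.sys.α k v * ‖d.sys.τ k v‖
      ≤ ∑ κ, d.wt k.1 k.2 κ (d.st κ v) * d.ma κ v * (‖d.dM κ v‖ + d.err κ v) := by
    have e2 : d.sys.α k v * ‖d.sys.τ k v‖ = ‖(d.sys.α k v : ℂ) * d.sys.τ k v‖ := by
      rw [norm_mul, Complex.norm_real, Real.norm_of_nonneg hα0]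
    rw [e2, e1]
    have e3 : ∑ κ, d.wt k.1 k.2 κ (d.st κ v) * d.ma κ v * (‖d.dM κ v‖ + d.err κ v)
        = ∑ κ, d.wt k.1 k.2 κ (d.st κ v) * d.ma κ v * ‖d.dM κ v‖
          + ∑ κ, d.wt k.1 k.2 κ (d.st κ v) * d.ma κ v * d.err κ v := by
      rw [← Finset.sum_add_distrib]
      exact Finset.sum_congr rfl fun κ _ => by ring
    rw [e3]
    linarith
  -- Cauchy-Schwarz
  have h9 : (∑ κ, d.wt k.1 k.2 κ (d.st κ v) * d.ma κ v * (‖d.dM κ v‖ + d.err κ v)) ^ 2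
      ≤ (∑ κ, d.wt k.1 k.2 κ (d.st κ v) * d.ma κ v)
        * ∑ κ, d.wt k.1 k.2 κ (d.st κ v) * d.ma κ v * (‖d.dM κ v‖ + d.err κ v) ^ 2 := by
    apply Finset.sum_sq_le_sum_mul_sum_of_sq_le_mul
    · intro κ _; exact hW κ
    · intro κ _; exact mul_nonneg (hW κ) (sq_nonneg _)
    · intro κ _; exact le_of_eq (by ring)
  have h10 : (d.sys.α k v * ‖d.sys.τ k v‖) ^ 2
      ≤ d.sys.α k v
        * ∑ κ, d.wt k.1 k.2 κ (d.st κ v) * d.ma κ v * (‖d.dM κ v‖ + d.err κ v) ^ 2 := by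
    refine le_trans ?_ h9
    exact pow_le_pow_left₀ (mul_nonneg hα0 (norm_nonneg _)) h8 2
  have h11 : d.sys.α k v * (d.sys.α k v * ‖d.sys.τ k v‖ ^ 2)
      ≤ d.sys.α k v
        * ∑ κ, d.wt k.1 k.2 κ (d.st κ v) * d.ma κ v * (‖d.dM κ v‖ + d.err κ v) ^ 2 := by
    calc _ = (d.sys.α k v * ‖d.sys.τ k v‖) ^ 2 := by ring
      _ ≤ _ := h10
  exact le_of_mul_le_mul_left h11 hpos

end Dat

end Vale.Agent.P091.T.H103
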