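import Vale.Agent.P091.T.H103.Bad

/-! Sum over the classes of the energy of the bad pairs at one node. -/

set_option linter.unusedSectionVars false

namespace Vale.Agent.P091.T.H103

open Vale.Agent.P091.H413

namespace Dat

variable {ι I Q : Type} [Fintype ι] [Fintype I] [Fintype Q] {d : Dat ι I Q}

open Classical

variable {Exc : ι → Node → Prop} {δ : ℝ}

/-- first family of weights -/
noncomputable def β1 (d : Dat ι I Q) (Exc : ι → Node → Prop) (δ : ℝ) (κ : ι) (v : Node) : ℝ :=
  if v.length + 1 < d.n then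
    (∑ k ∈ Finset.univ.filter (fun k : K I d.n => d.BX Exc δ k v),
      d.wt k.1 k.2 κ (d.st κ v)) * d.ma κ v
  else 0

/-- second family of weights -/
noncomputable def β2 (d : Dat ι I Q) (Exc : ι → Node → Prop) (κ : ι) (v : Node) : ℝ :=
  if v.length + 1 < d.n ∧ d.st κ v ≠ none then d.Wx Exc κ v / 2 else 0

theorem β1_nonneg (h : d.Ok) (κ : ι) (v : Node) : 0 ≤ d.β1 Exc δ κ v := by
  unfold β1
  split_ifs with hv
  · exact mul_nonneg (Finset.sum_nonneg fun k _ => wt_nonneg h _ _ _ _)
      (ma_nonneg h κ (by omega))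
  · exact le_rfl

theorem β2_nonneg (h : d.Ok) (κ : ι) (v : Node) : 0 ≤ d.β2 Exc κ v := by
  unfold β2
  split_ifs with hv
  · have := Wx_nonneg (Exc := Exc) h κ (v := v) (by omega)
    linarith
  · exact le_rfl

theorem β1_le (h : d.Ok) (κ : ι) {v : Node} (hvn : v.length < d.n) :
    d.β1 Exc δ κ v ≤ d.ma κ v := by
  have h0 := ma_nonneg h κ hvn.le
  unfold β1
  split_ifs with hv
  · have h1 : ∑ k ∈ Finset.univ.filter (fun k : K I d.n => d.BX Exc δ k v),
        d.wt k.1 k.2 κ (d.st κ v) ≤ 1 :=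
      (Finset.sum_le_univ_sum_of_nonneg fun k => wt_nonneg h _ _ _ _).trans (sum_wt_le h κ _)
    calc _ ≤ 1 * d.ma κ v := mul_le_mul_of_nonneg_right h1 h0
      _ = _ := one_mul _
  · exact h0

theorem β2_le (h : d.Ok) (κ : ι) {v : Node} (hvn : v.length < d.n) :
    d.β2 Exc κ v ≤ d.ma κ v := by
  have h0 := ma_nonneg h κ hvn.le
  have h1 := Wx_le (Exc := Exc) h κ hvn
  unfold β2
  split_ifs <;> linarith

theorem β1_live (κ : ι) (v : Node) (h1 : d.β1 Exc δ κ v ≠ 0) : d.st κ v ≠ none := by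
  intro h2
  apply h1
  unfold β1
  rw [h2]
  simp [wt_none]

theorem β2_live (κ : ι) (v : Node) (h1 : d.β2 Exc κ v ≠ 0) : d.st κ v ≠ none := by
  intro h2
  apply h1
  unfold β2
  rw [if_neg (fun h3 => h3.2 h2)]

theorem sum_xk_le (h : d.Ok) {v : Node} (hv : v.length < d.n) :
    ∑ k : K I d.n, d.xk Exc k v ≤ d.xm Exc v := by
  unfold xk xm
  rw [Finset.sum_comm]
  refine Finset.sum_le_sum fun κ _ => ?_
  have h0 := ma_nonneg h κ hv.le
  have h1 := sum_wt_mul_le h κ (d.st κ v) (x := if Exc κ v then d.ma κ v else 0)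
    (by split_ifs <;> linarith) Finset.univ
  refine h1.trans (le_of_eq ?_)
  by_cases h2 : d.st κ v ≠ none <;> by_cases h3 : Exc κ v <;> simp [h2, h3]

theorem sum_xk'_le (h : d.Ok) (c : Bool) {v : Node} (hv : v.length < d.n) :
    ∑ k : K I d.n, d.xk' Exc k c v ≤ d.xm Exc (c :: v) := by
  have hb : (c :: v).length ≤ d.n := by simp only [List.length_cons]; omega
  unfold xk' xm
  rw [Finset.sum_comm]
  refine Finset.sum_le_sum fun κ _ => ?_
  have h0 := ma_nonneg h κ hb
  have h1 := sum_wt_mul_le h κ (d.st κ v)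
    (x := if d.st κ (c :: v) = d.st κ v ∧ Exc κ (c :: v) then d.ma κ (c :: v) else 0)
    (by split_ifs <;> linarith) Finset.univ
  refine h1.trans ?_
  by_cases h2 : d.st κ v ≠ none
  · rw [if_pos h2]
    by_cases h3 : d.st κ (c :: v) = d.st κ v ∧ Exc κ (c :: v)
    · rw [if_pos h3, if_pos ⟨by rw [h3.1]; exact h2, h3.2⟩]
    · rw [if_neg h3]
      split_ifs <;> linarith
  · rw [if_neg h2]
    split_ifs <;> linarith

theorem sum_lk'_le (h : d.Ok) (c : Bool) {v : Node} (hv : v.length < d.n) :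
    ∑ k : K I d.n, d.lk' k c v ≤ d.lm (c :: v) := by
  have hb : (c :: v).length ≤ d.n := by simp only [List.length_cons]; omega
  unfold lk' lm
  rw [Finset.sum_comm]
  refine Finset.sum_le_sum fun κ _ => ?_
  have h0 := ma_nonneg h κ hb
  have h1 := sum_wt_mul_le h κ (d.st κ v)
    (x := if d.st κ (c :: v) ≠ d.st κ v then d.ma κ (c :: v) else 0)
    (by split_ifs <;> linarith) Finset.univ
  refine h1.trans (le_of_eq ?_)
  have e : d.st' κ (c :: v) = d.st κ v := rfl
  rw [e]
  by_cases h2 : d.st κ v ≠ none <;> by_cases h3 : d.st κ (c :: v) ≠ d.st κ v <;> simp [h2, h3]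

theorem sum_β1_le (h : d.Ok) (hδ : 0 < δ) {eps : ℝ} (heps : 0 ≤ eps)
    (hx : ∀ v, v.length < d.n → d.xm Exc v ≤ eps) {v : Node} :
    ∑ κ, d.β1 Exc δ κ v ≤ 12 * eps / δ := by
  by_cases hv : v.length + 1 < d.n
  · have hvn : v.length < d.n := by omega
    have hb : ∀ c : Bool, (c :: v).length < d.n := by
      intro c; simp only [List.length_cons]; omega
    have e1 : ∑ κ, d.β1 Exc δ κ v
        = ∑ k ∈ Finset.univ.filter (fun k : K I d.n => d.BX Exc δ k v), d.sys.α k v := by
      have : ∀ κ, d.β1 Exc δ κ v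
          = ∑ k ∈ Finset.univ.filter (fun k : K I d.n => d.BX Exc δ k v),
            d.wt k.1 k.2 κ (d.st κ v) * d.ma κ v := by
        intro κ
        unfold β1
        rw [if_pos hv, Finset.sum_mul]
      rw [Finset.sum_congr rfl fun κ _ => this κ, Finset.sum_comm]
      rfl
    have h1 : ∀ k ∈ Finset.univ.filter (fun k : K I d.n => d.BX Exc δ k v),
        d.sys.α k v ≤ 4 / δ * (d.xk Exc k v + (d.xk' Exc k true v + d.xk' Exc k false v)) := by
      intro k hk
      have hk2 : d.BX Exc δ k v := (Finset.mem_filter.mp hk).2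
      unfold BX at hk2
      rw [div_mul_eq_mul_div, le_div_iff₀ hδ]
      linarith
    have h2 : ∑ k ∈ Finset.univ.filter (fun k : K I d.n => d.BX Exc δ k v), d.sys.α k v
        ≤ ∑ k : K I d.n, 4 / δ * (d.xk Exc k v + (d.xk' Exc k true v + d.xk' Exc k false v)) := by
      refine (Finset.sum_le_sum h1).trans ?_
      apply Finset.sum_le_univ_sum_of_nonneg
      intro k
      have g1 := xk_nonneg (Exc := Exc) h k hvn
      have g2 := xk'_nonneg (Exc := Exc) h k true hvn
      have g3 := xk'_nonneg (Exc := Exc) h k false hvn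
      positivity
    have h3 : ∑ k : K I d.n, 4 / δ * (d.xk Exc k v + (d.xk' Exc k true v + d.xk' Exc k false v))
        = 4 / δ * (∑ k : K I d.n, d.xk Exc k v + (∑ k : K I d.n, d.xk' Exc k true v
          + ∑ k : K I d.n, d.xk' Exc k false v)) := by
      rw [← Finset.mul_sum, Finset.sum_add_distrib, Finset.sum_add_distrib]
    have h4 := sum_xk_le (Exc := Exc) h hvn
    have h5 := sum_xk'_le (Exc := Exc) h true hvn
    have h6 := sum_xk'_le (Exc := Exc) h false hvn
    have h7 := hx v hvn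
    have h8 := hx (true :: v) (hb _)
    have h9 := hx (false :: v) (hb _)
    rw [e1]
    refine h2.trans ?_
    rw [h3]
    have h10 : (4 : ℝ) / δ * (∑ k : K I d.n, d.xk Exc k v + (∑ k : K I d.n, d.xk' Exc k true v
          + ∑ k : K I d.n, d.xk' Exc k false v)) ≤ 4 / δ * (3 * eps) :=
      mul_le_mul_of_nonneg_left (by linarith) (by positivity)
    refine h10.trans (le_of_eq ?_)
    ring
  · have : ∑ κ, d.β1 Exc δ κ v = 0 := by
      apply Finset.sum_eq_zero
      intro κ _
      unfold β1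
      rw [if_neg hv]
    rw [this]
    positivity

theorem sum_β2_le (h : d.Ok) {eps : ℝ} (heps : 0 ≤ eps)
    (hx : ∀ v, v.length < d.n → d.xm Exc v ≤ eps) {v : Node} :
    ∑ κ, d.β2 Exc κ v ≤ eps := by
  by_cases hv : v.length + 1 < d.n
  · have hvn : v.length < d.n := by omega
    have hb : ∀ c : Bool, (c :: v).length < d.n := by
      intro c; simp only [List.length_cons]; omega
    have h1 : ∀ κ, d.β2 Exc κ v
        ≤ (if d.st κ v ≠ none ∧ Exc κ v then d.ma κ v else 0) / 2
          + ((if d.st κ (true :: v) ≠ none ∧ Exc κ (true :: v) then d.ma κ (true :: v) else 0)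
          + (if d.st κ (false :: v) ≠ none ∧ Exc κ (false :: v) then d.ma κ (false :: v)
            else 0)) / 4 := by
      intro κ
      have h0 := ma_nonneg h κ hvn.le
      have h1 := ma_nonneg h κ (hb true).le
      have h2 := ma_nonneg h κ (hb false).le
      unfold β2
      by_cases ho : d.st κ v ≠ none
      · rw [if_pos ⟨hv, ho⟩]
        have q : ∀ c : Bool,
            (if d.st κ (c :: v) = d.st κ v ∧ Exc κ (c :: v) then d.ma κ (c :: v) else 0)
            ≤ if d.st κ (c :: v) ≠ none ∧ Exc κ (c :: v) then d.ma κ (c :: v) else 0 := by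
          intro c
          have hc := ma_nonneg h κ (hb c).le
          by_cases h3 : d.st κ (c :: v) = d.st κ v ∧ Exc κ (c :: v)
          · rw [if_pos h3, if_pos ⟨by rw [h3.1]; exact ho, h3.2⟩]
          · rw [if_neg h3]
            split_ifs <;> linarith
        have q1 := q true
        have q2 := q false
        have q3 : (if Exc κ v then d.ma κ v else 0)
            = if d.st κ v ≠ none ∧ Exc κ v then d.ma κ v else 0 := by
          by_cases h3 : Exc κ v <;> simp [ho, h3]
        unfold Wx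
        rw [q3]
        linarith
      · rw [if_neg (fun h3 => ho h3.2)]
        split_ifs <;> linarith
    have h4 := hx v hvn
    have h5 := hx (true :: v) (hb _)
    have h6 := hx (false :: v) (hb _)
    have h7 := Finset.sum_le_sum (fun κ (_ : κ ∈ Finset.univ) => h1 κ)
    rw [Finset.sum_add_distrib, ← Finset.sum_div, ← Finset.sum_div, Finset.sum_add_distrib] at h7
    unfold xm at h4 h5 h6
    linarith
  · have : ∑ κ, d.β2 Exc κ v = 0 := by
      apply Finset.sum_eq_zero
      intro κ _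
      unfold β2
      rw [if_neg (fun h3 => hv h3.1)]
    rw [this]
    exact heps

/-- **bad energy at one node** -/
theorem node_bad (h : d.Ok) (hδ : 0 < δ) (hδ1 : δ ≤ 1)
    (hE : ∀ κ v, v.length < d.n → d.st κ v ≠ none → ¬ Exc κ v → ‖d.M κ v‖ ≤ δ)
    (hr : ∀ κ v, v.length < d.n → d.st κ v ≠ none → d.err κ v ≤ δ)
    {v : Node} (hv : v.length + 1 < d.n) :
    (∑ k, if d.Good δ k v then 0 else d.sys.α k v * ‖d.sys.τ k v‖ ^ 2)
      ≤ 2 * ∑ κ, d.β1 Exc δ κ v * ‖d.dM κ v‖ ^ 2 + 4 * ∑ κ, d.β2 Exc κ v * ‖d.dM κ v‖ ^ 2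
        + 65 * (d.lm (true :: v) + d.lm (false :: v))
        + 64 * δ ^ 2 * ∑ k, d.sys.dα k v ^ 2 / d.sys.α k v
        + 20 * (d.r (true :: v) + d.r (false :: v)) + 2 * d.em v := by
  have hvn : v.length < d.n := by omega
  have hb : ∀ c : Bool, (c :: v).length < d.n := by
    intro c; simp only [List.length_cons]; omega
  have hok := sys_ok h
  have hr1 := r_nonneg h (hb true)
  have hr2 := r_nonneg h (hb false)
  have hr3 := r_le h (hb true)
  have hr4 := r_le h (hb false)
  -- one class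
  have key : ∀ k : K I d.n, (if d.Good δ k v then 0 else d.sys.α k v * ‖d.sys.τ k v‖ ^ 2)
      ≤ (if d.BX Exc δ k v then
          2 * ∑ κ, d.wt k.1 k.2 κ (d.st κ v) * d.ma κ v * ‖d.dM κ v‖ ^ 2 else 0)
        + ∑ κ, d.wt k.1 k.2 κ (d.st κ v) * (2 * (d.Wx Exc κ v * ‖d.dM κ v‖ ^ 2) + d.Lx κ v
            + 2 * (d.err κ v * d.ma κ v))
        + 16 * (4 * δ ^ 2 * (d.sys.dα k v ^ 2 / d.sys.α k v)
          + δ * (d.r (true :: v) + d.r (false :: v)) * d.sys.α k v
          + 4 * δ * (d.lk' k true v + d.lk' k false v))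
        + 2 * (d.r (true :: v) ^ 2 * d.sys.α' k (true :: v)
          + d.r (false :: v) ^ 2 * d.sys.α' k (false :: v)) := by
    intro k
    have hα := hok.α0 k v hvn
    have hα1 := hok.α0' k (true :: v) (hb true).le
    have hα2 := hok.α0' k (false :: v) (hb false).le
    have hl1 := lk'_nonneg h k true hvn
    have hl2 := lk'_nonneg h k false hvn
    have hdq : 0 ≤ d.sys.dα k v ^ 2 / d.sys.α k v := div_nonneg (sq_nonneg _) hα
    have t1 : 0 ≤ ∑ κ, d.wt k.1 k.2 κ (d.st κ v) * d.ma κ v * ‖d.dM κ v‖ ^ 2 :=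
      Finset.sum_nonneg fun κ _ => mul_nonneg (mul_nonneg (wt_nonneg h _ _ _ _)
        (ma_nonneg h κ hvn.le)) (sq_nonneg _)
    have t2 : 0 ≤ ∑ κ, d.wt k.1 k.2 κ (d.st κ v) * (2 * (d.Wx Exc κ v * ‖d.dM κ v‖ ^ 2)
        + d.Lx κ v + 2 * (d.err κ v * d.ma κ v)) := by
      apply Finset.sum_nonneg
      intro κ _
      apply mul_nonneg (wt_nonneg h _ _ _ _)
      have g1 := mul_nonneg (Wx_nonneg (Exc := Exc) h κ hvn) (sq_nonneg ‖d.dM κ v‖)
      have g2 := Lx_nonneg h κ hvn
      have g3 := mul_nonneg (h.err0 κ v) (ma_nonneg h κ hvn.le)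
      linarith
    have t3 : 0 ≤ 4 * δ ^ 2 * (d.sys.dα k v ^ 2 / d.sys.α k v)
          + δ * (d.r (true :: v) + d.r (false :: v)) * d.sys.α k v
          + 4 * δ * (d.lk' k true v + d.lk' k false v) := by positivity
    have t4 : 0 ≤ d.r (true :: v) ^ 2 * d.sys.α' k (true :: v)
          + d.r (false :: v) ^ 2 * d.sys.α' k (false :: v) := by positivity
    by_cases hg : d.Good δ k v
    · rw [if_pos hg]
      have t5 : 0 ≤ (if d.BX Exc δ k v then
          2 * ∑ κ, d.wt k.1 k.2 κ (d.st κ v) * d.ma κ v * ‖d.dM κ v‖ ^ 2 else 0) := by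
        split_ifs <;> linarith
      linarith
    · rw [if_neg hg]
      have h1 := tau_le h k hvn
      have h2 : ∑ κ, d.wt k.1 k.2 κ (d.st κ v) * d.ma κ v * (‖d.dM κ v‖ + d.err κ v) ^ 2
          ≤ ∑ κ, d.wt k.1 k.2 κ (d.st κ v) * (2 * (d.ma κ v * ‖d.dM κ v‖ ^ 2)
            + 2 * (d.err κ v * d.ma κ v)) := by
        refine Finset.sum_le_sum fun κ _ => ?_
        by_cases ho : d.st κ v = none
        · have : d.wt k.1 k.2 κ (d.st κ v) = 0 := by rw [ho]; rfl
          rw [this]; simp
        · rw [mul_assoc]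
          apply mul_le_mul_of_nonneg_left _ (wt_nonneg h _ _ _ _)
          have g0 := ma_nonneg h κ hvn.le
          have g1 := h.err0 κ v
          have g2 := hr κ v hvn ho
          have g3 : d.err κ v ^ 2 ≤ d.err κ v := by nlinarith
          have g4 : (‖d.dM κ v‖ + d.err κ v) ^ 2 ≤ 2 * ‖d.dM κ v‖ ^ 2 + 2 * d.err κ v := by
            nlinarith [sq_nonneg (‖d.dM κ v‖ - d.err κ v)]
          have g5 := mul_le_mul_of_nonneg_left g4 g0
          linarith
      by_cases hB : d.BX Exc δ k v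
      · rw [if_pos hB]
        have h3 : ∑ κ, d.wt k.1 k.2 κ (d.st κ v) * (2 * (d.ma κ v * ‖d.dM κ v‖ ^ 2)
            + 2 * (d.err κ v * d.ma κ v))
            ≤ 2 * ∑ κ, d.wt k.1 k.2 κ (d.st κ v) * d.ma κ v * ‖d.dM κ v‖ ^ 2
              + ∑ κ, d.wt k.1 k.2 κ (d.st κ v) * (2 * (d.Wx Exc κ v * ‖d.dM κ v‖ ^ 2)
                + d.Lx κ v + 2 * (d.err κ v * d.ma κ v)) := by
          rw [Finset.mul_sum, ← Finset.sum_add_distrib]
          refine Finset.sum_le_sum fun κ _ => ?_
          have g1 := mul_nonneg (Wx_nonneg (Exc := Exc) h κ hvn) (sq_nonneg ‖d.dM κ v‖)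
          have g2 := Lx_nonneg h κ hvn
          have g3 := wt_nonneg h k.1 k.2 κ (d.st κ v)
          have g4 := mul_nonneg g3 g1
          have g5 := mul_nonneg g3 g2
          linarith
        linarith
      · rw [if_neg hB]
        have h3 := not_good h hδ hE hr k hv hg hB
        have h4 : ∑ κ, d.wt k.1 k.2 κ (d.st κ v) * (2 * (d.ma κ v * ‖d.dM κ v‖ ^ 2)
            + 2 * (d.err κ v * d.ma κ v))
            ≤ ∑ κ, d.wt k.1 k.2 κ (d.st κ v) * (2 * (d.Wx Exc κ v * ‖d.dM κ v‖ ^ 2)
                + d.Lx κ v + 2 * (d.err κ v * d.ma κ v))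
              + (16 * δ ^ 2 * d.sys.α k v
                + 2 * (d.r (true :: v) ^ 2 * d.sys.α' k (true :: v)
                  + d.r (false :: v) ^ 2 * d.sys.α' k (false :: v))) := by
          have e : 16 * δ ^ 2 * d.sys.α k v
                + 2 * (d.r (true :: v) ^ 2 * d.sys.α' k (true :: v)
                  + d.r (false :: v) ^ 2 * d.sys.α' k (false :: v))
              = ∑ κ, d.wt k.1 k.2 κ (d.st κ v) * (16 * δ ^ 2 * d.ma κ v
                + 2 * (d.r (true :: v) ^ 2 * d.ma κ (true :: v)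
                  + d.r (false :: v) ^ 2 * d.ma κ (false :: v))) := by
            show 16 * δ ^ 2 * (∑ κ, d.wt k.1 k.2 κ (d.st κ v) * d.ma κ v)
                + 2 * (d.r (true :: v) ^ 2 *
                    (∑ κ, d.wt k.1 k.2 κ (d.st κ v) * d.ma κ (true :: v))
                  + d.r (false :: v) ^ 2 *
                    (∑ κ, d.wt k.1 k.2 κ (d.st κ v) * d.ma κ (false :: v))) = _
            rw [Finset.mul_sum, Finset.mul_sum, Finset.mul_sum, ← Finset.sum_add_distrib,
              Finset.mul_sum, ← Finset.sum_add_distrib]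
            exact Finset.sum_congr rfl fun κ _ => by ring
          rw [e, ← Finset.sum_add_distrib]
          refine Finset.sum_le_sum fun κ _ => ?_
          by_cases ho : d.st κ v = none
          · have : d.wt k.1 k.2 κ (d.st κ v) = 0 := by rw [ho]; rfl
            rw [this]; simp
          · have g1 := letter h hδ.le hE κ hv ho
            have g3 := wt_nonneg h k.1 k.2 κ (d.st κ v)
            have g4 := mul_le_mul_of_nonneg_left g1 g3
            linarith
        linarith
  refine (Finset.sum_le_sum fun k _ => key k).trans ?_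
  rw [Finset.sum_add_distrib, Finset.sum_add_distrib, Finset.sum_add_distrib]
  -- the four sums
  have s1 : (∑ k : K I d.n, if d.BX Exc δ k v then
          2 * ∑ κ, d.wt k.1 k.2 κ (d.st κ v) * d.ma κ v * ‖d.dM κ v‖ ^ 2 else 0)
      = 2 * ∑ κ, d.β1 Exc δ κ v * ‖d.dM κ v‖ ^ 2 := by
    rw [← Finset.sum_filter, ← Finset.mul_sum]
    congr 1
    rw [Finset.sum_comm]
    refine Finset.sum_congr rfl fun κ _ => ?_
    unfold β1
    rw [if_pos hv, Finset.sum_mul, Finset.sum_mul]
  have s2 : ∑ k : K I d.n, ∑ κ, d.wt k.1 k.2 κ (d.st κ v) *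
        (2 * (d.Wx Exc κ v * ‖d.dM κ v‖ ^ 2) + d.Lx κ v + 2 * (d.err κ v * d.ma κ v))
      ≤ 4 * ∑ κ, d.β2 Exc κ v * ‖d.dM κ v‖ ^ 2 + (d.lm (true :: v) + d.lm (false :: v))
        + 2 * d.em v := by
    rw [Finset.sum_comm]
    have e : 4 * ∑ κ, d.β2 Exc κ v * ‖d.dM κ v‖ ^ 2 + (d.lm (true :: v) + d.lm (false :: v))
        + 2 * d.em v
        = ∑ κ, (4 * (d.β2 Exc κ v * ‖d.dM κ v‖ ^ 2)
          + ((if d.st κ v ≠ none ∧ d.st κ (true :: v) ≠ d.st κ v then d.ma κ (true :: v) else 0)
          + (if d.st κ v ≠ none ∧ d.st κ (false :: v) ≠ d.st κ v then d.ma κ (false :: v) else 0))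
          + 2 * (if d.st κ v ≠ none then d.err κ v * d.ma κ v else 0)) := by
      rw [Finset.sum_add_distrib, Finset.sum_add_distrib, Finset.sum_add_distrib,
        ← Finset.mul_sum, ← Finset.mul_sum]
      rfl
    rw [e]
    refine Finset.sum_le_sum fun κ _ => ?_
    have g1 := mul_nonneg (Wx_nonneg (Exc := Exc) h κ hvn) (sq_nonneg ‖d.dM κ v‖)
    have g2 := Lx_nonneg h κ hvn
    have g3 := mul_nonneg (h.err0 κ v) (ma_nonneg h κ hvn.le)
    refine (sum_wt_mul_le h κ (d.st κ v) (by linarith) Finset.univ).trans ?_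
    by_cases ho : d.st κ v ≠ none
    · have hβ : d.β2 Exc κ v = d.Wx Exc κ v / 2 := by
        unfold β2; exact if_pos ⟨hv, ho⟩
      rw [if_pos ho, if_pos ho, hβ]
      unfold Lx
      have q : ∀ c : Bool, (if d.st κ (c :: v) ≠ d.st κ v then d.ma κ (c :: v) else 0)
          = if d.st κ v ≠ none ∧ d.st κ (c :: v) ≠ d.st κ v then d.ma κ (c :: v) else 0 := by
        intro c
        by_cases h3 : d.st κ (c :: v) ≠ d.st κ v <;> simp [ho, h3]
      rw [q true, q false]
      linarith
    · have q : ∀ c : Bool, (if d.st κ v ≠ none ∧ d.st κ (c :: v) ≠ d.st κ v then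
          d.ma κ (c :: v) else 0) = 0 := fun c => if_neg fun h3 => ho h3.1
      rw [if_neg ho, if_neg ho, q true, q false]
      have := mul_nonneg (β2_nonneg (Exc := Exc) h κ v) (sq_nonneg ‖d.dM κ v‖)
      linarith
  have hsum := hok.αsum v hvn
  have hsum1 := hok.αsum' (true :: v) (hb true).le
  have hsum2 := hok.αsum' (false :: v) (hb false).le
  have s3 : ∑ k : K I d.n, 16 * (4 * δ ^ 2 * (d.sys.dα k v ^ 2 / d.sys.α k v)
          + δ * (d.r (true :: v) + d.r (false :: v)) * d.sys.α k v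
          + 4 * δ * (d.lk' k true v + d.lk' k false v))
      ≤ 64 * δ ^ 2 * ∑ k, d.sys.dα k v ^ 2 / d.sys.α k v
        + 16 * (d.r (true :: v) + d.r (false :: v))
        + 64 * (d.lm (true :: v) + d.lm (false :: v)) := by
    have e : ∑ k : K I d.n, 16 * (4 * δ ^ 2 * (d.sys.dα k v ^ 2 / d.sys.α k v)
          + δ * (d.r (true :: v) + d.r (false :: v)) * d.sys.α k v
          + 4 * δ * (d.lk' k true v + d.lk' k false v))
        = 64 * δ ^ 2 * (∑ k : K I d.n, d.sys.dα k v ^ 2 / d.sys.α k v)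
          + 16 * (δ * (d.r (true :: v) + d.r (false :: v))) * (∑ k : K I d.n, d.sys.α k v)
          + 64 * δ * (∑ k : K I d.n, d.lk' k true v + ∑ k : K I d.n, d.lk' k false v) := by
      rw [← Finset.mul_sum, Finset.sum_add_distrib, Finset.sum_add_distrib, ← Finset.mul_sum,
        ← Finset.mul_sum, ← Finset.mul_sum, Finset.sum_add_distrib]
      ring
    rw [e]
    have g1 := sum_lk'_le h true hvn
    have g2 := sum_lk'_le h false hvn
    have g3 : 16 * (δ * (d.r (true :: v) + d.r (false :: v))) * (∑ k : K I d.n, d.sys.α k v)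
        ≤ 16 * (d.r (true :: v) + d.r (false :: v)) := by
      have q1 : 0 ≤ d.r (true :: v) + d.r (false :: v) := by linarith
      have q2 : δ * (d.r (true :: v) + d.r (false :: v)) ≤ d.r (true :: v) + d.r (false :: v) := by
        nlinarith
      have q3 : 0 ≤ δ * (d.r (true :: v) + d.r (false :: v)) := by positivity
      have q4 := mul_le_mul_of_nonneg_left hsum (by linarith :
        0 ≤ 16 * (δ * (d.r (true :: v) + d.r (false :: v))))
      linarith
    have g4 : 64 * δ * (∑ k : K I d.n, d.lk' k true v + ∑ k : K I d.n, d.lk' k false v)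
        ≤ 64 * (d.lm (true :: v) + d.lm (false :: v)) := by
      have q1 := lm_nonneg h (hb true).le
      have q2 := lm_nonneg h (hb false).le
      have q3 : 64 * δ * (∑ k : K I d.n, d.lk' k true v + ∑ k : K I d.n, d.lk' k false v)
          ≤ 64 * δ * (d.lm (true :: v) + d.lm (false :: v)) :=
        mul_le_mul_of_nonneg_left (by linarith) (by positivity)
      nlinarith
    linarith
  have s4 : ∑ k : K I d.n, 2 * (d.r (true :: v) ^ 2 * d.sys.α' k (true :: v)
          + d.r (false :: v) ^ 2 * d.sys.α' k (false :: v))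
      ≤ 4 * (d.r (true :: v) + d.r (false :: v)) := by
    have e : ∑ k : K I d.n, 2 * (d.r (true :: v) ^ 2 * d.sys.α' k (true :: v)
          + d.r (false :: v) ^ 2 * d.sys.α' k (false :: v))
        = 2 * (d.r (true :: v) ^ 2 * (∑ k : K I d.n, d.sys.α' k (true :: v))
          + d.r (false :: v) ^ 2 * (∑ k : K I d.n, d.sys.α' k (false :: v))) := by
      rw [← Finset.mul_sum, Finset.sum_add_distrib, ← Finset.mul_sum, ← Finset.mul_sum]
    rw [e]
    have g1 := mul_le_mul_of_nonneg_left hsum1 (sq_nonneg (d.r (true :: v)))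
    have g2 := mul_le_mul_of_nonneg_left hsum2 (sq_nonneg (d.r (false :: v)))
    nlinarith
  linarith

end Dat

end Vale.Agent.P091.T.H103
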